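import Crest.Agent.R330.BF.Defs

/-! # Row 330, block BF/Odd: parity and the cut-off (owner helper3; statements frozen) -/

set_option autoImplicit false
set_option linter.unusedSectionVars false

noncomputable section

open MeasureTheory Filter Topology
open scoped InnerProductSpace ContDiff Matrix
open Crest.MathPhysics.MatrixQM (GammaNine)

namespace Crest.Agent.R330

variable {E Z L H F : Type}
  [NormedAddCommGroup E] [InnerProductSpace ℝ E] [FiniteDimensional ℝ E]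
  [NormedAddCommGroup Z] [InnerProductSpace ℝ Z] [FiniteDimensional ℝ Z]
  [NormedAddCommGroup L] [InnerProductSpace ℝ L] [FiniteDimensional ℝ L]
  [NormedAddCommGroup H] [InnerProductSpace ℝ H] [FiniteDimensional ℝ H]
  [NormedAddCommGroup F] [InnerProductSpace ℂ F] [FiniteDimensional ℂ F]
  [MeasurableSpace E] [BorelSpace E] [MeasurableSpace Z] [BorelSpace Z]
  [MeasurableSpace L] [BorelSpace L] [MeasurableSpace H] [BorelSpace H]
  {P : Type} [Fintype P] {𝔤 : Lie E} (D : Levi 𝔤 Z L H P) (C : Cl (Th E) F) (σ : Spn)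

namespace Levi

/-- `u' = smoothTransition (3 - 4‖Φ‖²) • u`. -/
theorem exists_loc2 {κ θ R : ℝ} {u : X E → F} (hu : D.Loc C σ.G ∅ κ θ R u) :
    ∃ u', D.Loc2 C κ θ R u' ∧ ∀ x, D.wtX x ≠ 0 → u' =ᶠ[𝓝 x] u := by
  set χ : X E → ℝ := fun x => Real.smoothTransition (3 - 4 * ‖D.Phi (D.zc x) (D.yc x)‖ ^ 2) with hχ
  have c0 : ContDiff ℝ ∞ fun x : X E => ‖D.Phi (D.zc x) (D.yc x)‖ ^ 2 := D.contDiff_PhiX.norm_sq ℝ
  have c1 : ContDiff ℝ ∞ χ :=
    Real.smoothTransition.contDiff.comp (contDiff_const.sub (contDiff_const.mul c0))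
  have hw : ∀ x, D.wtX x ≠ 0 → ‖D.Phi (D.zc x) (D.yc x)‖ ^ 2 < 1 / 2 := fun x hx =>
    not_le.1 fun h => hx (D.wt_eq_zero h)
  have sq : ∀ {a : ℝ}, 0 ≤ a → a ^ 2 ≤ 3 / 4 → a < 1 := fun h h' => by nlinarith
  have ev : ∀ x, D.wtX x ≠ 0 → (fun x => (χ x : ℂ) • u x) =ᶠ[𝓝 x] u := fun x hx => by
    filter_upwards [(isOpen_lt c0.continuous continuous_const).mem_nhds (hw x hx)] with y hy
    rw [show χ y = 1 from Real.smoothTransition.one_of_one_le (by linarith [show _ < (1 / 2 : ℝ) from hy])]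
    simp
  refine ⟨fun x => (χ x : ℂ) • u x, ⟨hu.1.smul_of_contDiffOn isOpen_univ (Set.subset_univ _) c1.contDiffOn,
    fun x hx => ?_, fun x hx ξ => ?_⟩, ev⟩
  · have h1 : x ∈ tsupport u := tsupport_smul_subset_right (fun x => (χ x : ℂ)) u hx
    have h2 : ‖D.Phi (D.zc x) (D.yc x)‖ ^ 2 ≤ 3 / 4 :=
      closure_minimal (s := Function.support fun x => (χ x : ℂ) • u x)
        (t := {x | ‖D.Phi (D.zc x) (D.yc x)‖ ^ 2 ≤ 3 / 4}) (fun y hy => not_lt.1
        fun (h : 3 / 4 < ‖D.Phi (D.zc y) (D.yc y)‖ ^ 2) => hy (by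
        simp [show χ y = 0 from Real.smoothTransition.zero_of_nonpos (by linarith)]))
        (isClosed_le c0.continuous continuous_const) hx
    have h3 := sq (norm_nonneg _) h2
    exact ⟨((hu.2 x h3).1 h1).1, ((hu.2 x h3).1 h1).2, h3⟩
  · have := (hu.2 x (sq (norm_nonneg _) (by linarith [hw x hx]))).2.1 ξ
    unfold WtAt at *
    simp only [(ev x hx).fderiv_eq, (ev x hx).eq_of_nhds, this]

theorem odd_supp {f : F → F} (h0 : f 0 = 0) (u : X E → F) : tsupport (fun x => f (u x)) ⊆ tsupport u :=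
  closure_mono (Function.support_comp_subset h0 u)

theorem tsupport_odd (u : X E → F) : tsupport (D.odd C u) ⊆ tsupport u :=
  odd_supp (f := fun a => (1 / 2 : ℂ) • (a - D.Gam C a)) (by simp) u
theorem core_odd {u : X E → F} (hu : Core u) : Core (D.odd C u) :=
  ⟨(hu.1.sub (((D.Gam C).restrictScalars ℝ).contDiff.comp hu.1)).const_smul (1 / 2 : ℂ),
    hu.2.of_isClosed_subset (isClosed_tsupport _) (D.tsupport_odd C u)⟩
theorem tsupport_even (u : X E → F) : tsupport (fun x => u x - D.odd C u x) ⊆ tsupport u :=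
  odd_supp (f := fun a => a - (1 / 2 : ℂ) • (a - D.Gam C a)) (by simp) u
theorem core_even {u : X E → F} (hu : Core u) : Core fun x => u x - D.odd C u x :=
  ⟨hu.1.sub (D.core_odd C hu).1, hu.2.of_isClosed_subset (isClosed_tsupport _) (D.tsupport_even C u)⟩
theorem odd_GG (a : F) : D.Gam C (D.Gam C a) = a := congr($((D.isPar_Gam C).2.1) a)
theorem odd_norm (a : F) : ‖D.Gam C a‖ = ‖a‖ := by
  have := (D.isPar_Gam C).1.isSymmetric a (D.Gam C a)
  simp only [ContinuousLinearMap.coe_coe, D.odd_GG, inner_self_eq_norm_sq_to_K] at this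
  exact (sq_eq_sq₀ (norm_nonneg _) (norm_nonneg _)).1 (by exact_mod_cast this)
theorem Gam_odd (u : X E → F) (x : X E) : D.Gam C (D.odd C u x) = -D.odd C u x := by
  simp only [odd, map_smul, map_sub, D.odd_GG]; module
theorem Gam_even (u : X E → F) (x : X E) : D.Gam C (u x - D.odd C u x) = u x - D.odd C u x := by
  simp only [odd, map_smul, map_sub, D.odd_GG]; module
theorem norm_half_sub_Gam (a : F) : ‖(1 / 2 : ℂ) • (a - D.Gam C a)‖ ≤ ‖a‖ := by
  have := norm_sub_le a (D.Gam C a)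
  rw [D.odd_norm] at this
  rw [norm_smul]; norm_num; linarith
theorem norm_even_le (u : X E → F) (x : X E) : ‖u x - D.odd C u x‖ ≤ ‖u x‖ := by
  have := norm_add_le (u x) (D.Gam C (u x))
  rw [D.odd_norm] at this
  rw [show u x - D.odd C u x = (1 / 2 : ℂ) • (u x + D.Gam C (u x)) by simp only [odd]; module, norm_smul]
  norm_num; linarith
theorem fderiv_odd {u : X E → F} {x : X E} (hu : DifferentiableAt ℝ u x) (v : X E) :
    fderiv ℝ (D.odd C u) x v = (1 / 2 : ℂ) • (fderiv ℝ u x v - D.Gam C (fderiv ℝ u x v)) :=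
  congr($(((hu.hasFDerivAt.sub (((D.Gam C).restrictScalars ℝ).hasFDerivAt.comp x hu.hasFDerivAt)).const_smul
    (1 / 2 : ℂ)).fderiv) v)
theorem Pi_odd (u : X E → F) {x : X E} (hz : D.zc x ∈ D.reg) :
    D.Pi C σ.G (D.zc x) (D.odd C u x) = 0 := by
  have : D.Pi C σ.G (D.zc x) (D.Gam C (u x)) = _ := congr($((D.Gam_Pi C σ.G hz).2) (u x))
  simp only [odd, map_smul, map_sub, this, sub_self, smul_zero]
/-- Gauss law of the odd part for a central generator (`S_brZ`, `comm_S`, `brZZ`, `brZL`, `brZH`). -/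
theorem gauss_odd {u : X E → F} {x : X E} (hu : DifferentiableAt ℝ u x) (hG : GaussAt 𝔤 C u x)
    (a : Z) : fderiv ℝ (D.odd C u) x (liftI 9 D.iH (lift 9 (D.adZ a) (D.yc x))) =
      (D.CH C).S (lift 16 (D.adZ a)) (D.odd C u x) := by
  have e : lift 9 (𝔤.br (D.iZ a)) x = liftI 9 D.iH (lift 9 (D.adZ a) (D.yc x)) := by
    conv_lhs => rw [← D.asm_eq x]
    ext i
    simp [asm, D.brZZ, D.brZL, D.brZH, adZ]
  have h := hG (D.iZ a)
  have hc : D.Gam C ((D.CH C).S (lift 16 (D.adZ a)) (u x)) = (D.CH C).S (lift 16 (D.adZ a)) (D.Gam C (u x)) :=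
    congr($((D.CH C).comm_S (D.Gam C) (Or.inr (D.isPar_Gam C).2.2) (lift 16 (D.adZ a))) (u x))
  simp only [WtAt, e, D.S_brZ, Complex.ofReal_zero, zero_mul, zero_smul, add_zero] at h
  rw [D.fderiv_odd C hu, h, hc, odd, map_smul, map_sub]

theorem exists_cH (i) : ∃ h : Th H, D.cH σ i = liftI 16 D.iH h := ⟨_, D.cmap_iH _ _ _⟩
theorem exists_wA {x : X E} (hz : D.zc x ∈ D.reg) : ∃ h : Th H, D.wA σ x = liftI 16 D.iH h :=
  ⟨_, by rw [wA, wA0, D.fderiv_wpot_central _ _ hz, D.fderiv_wpot_light, ← map_add]⟩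
theorem exists_cB (k) : ∃ (a : Th Z) (b : Th L),
    cmap σ.G σ.s (D.bL k) = liftI 16 D.iZ a + liftI 16 D.iL b := by
  rcases k with k | k
  · exact ⟨_, 0, (D.cmap_iZ _ _ _).trans (by rw [(liftI 16 D.iL).map_zero, add_zero])⟩
  · exact ⟨0, _, (D.cmap_iL _ _ _).trans (by rw [(liftI 16 D.iZ).map_zero, zero_add])⟩
theorem inner_heavy_light (h : Th H) (a : Th Z) (b : Th L) :
    ⟪liftI 16 D.iH h, liftI 16 D.iZ a + liftI 16 D.iL b⟫_ℝ = 0 := by
  rw [real_inner_comm]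
  simp [PiLp.inner_apply, inner_add_left, D.oZH, D.oLH]
theorem Gam_heavy (h : Th H) :
    D.Gam C * C.θ (liftI 16 D.iH h) = -(C.θ (liftI 16 D.iH h) * D.Gam C) := (D.isPar_Gam C).2.2 h
theorem Gam_light (a : Th Z) (b : Th L) :
    D.Gam C * C.θ (liftI 16 D.iZ a + liftI 16 D.iL b) =
      C.θ (liftI 16 D.iZ a + liftI 16 D.iL b) * D.Gam C := by
  rw [map_add, mul_add, add_mul]
  exact congrArg₂ _ (D.Gam_comm_Z C a) (D.Gam_comm_L C b)
theorem inner_cH (i j) : ⟪D.cH σ i, D.cH σ j⟫_ℝ = if i = j then 1 else 0 := by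
  rw [← orthonormal_iff_ite.1 (stdOrthonormalBasis ℝ (X H)).orthonormal i j, ← (liftI 9 D.iH).inner_map_map]
  exact (⟨cmap σ.G σ.s, norm_cmap σ.G σ.unit⟩ : X E →ₗᵢ[ℝ] Th E).inner_map_map _ _
theorem norm_cH (i) : ‖D.cH σ i‖ = 1 := by
  rw [cH, norm_cmap σ.G σ.unit, LinearIsometry.norm_map, OrthonormalBasis.norm_eq_one]
theorem norm_cB (k) : ‖cmap σ.G σ.s (D.bL k)‖ = 1 := by
  rw [norm_cmap σ.G σ.unit]
  rcases k with k | k <;> simp [bL]

end Levi

end Crest.Agent.R330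

end
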