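import Crest.Agent.R330.BF.Odd

/-! # Row 330, block BF/Slice: the splitting `Q = A + B + small` (owner helper3; statements frozen) -/

set_option autoImplicit false
set_option linter.unusedSectionVars false

noncomputable section

open MeasureTheory Filter Topology
open scoped InnerProductSpace ContDiff Matrix
open Crest.MathPhysics.MatrixQM (GammaNine)

namespace Crest.Agent.R330

variable {E Z L H F : Type}
  [NormedAddCommGroup E] [InnerProductSpace ℝ E] [FiniteDimensional ℝ E]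
  [NormedAddCommGroup Z] [InnerProductSpace ℝ Z] [FiniteDimensional ℝ Z]
  [NormedAddCommGroup L] [InnerProductSpace ℝ L] [FiniteDimensional ℝ L]
  [NormedAddCommGroup H] [InnerProductSpace ℝ H] [FiniteDimensional ℝ H]
  [NormedAddCommGroup F] [InnerProductSpace ℂ F] [FiniteDimensional ℂ F]
  [MeasurableSpace E] [BorelSpace E] [MeasurableSpace Z] [BorelSpace Z]
  [MeasurableSpace L] [BorelSpace L] [MeasurableSpace H] [BorelSpace H]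
  {P : Type} [Fintype P] {𝔤 : Lie E} (D : Levi 𝔤 Z L H P) (C : Cl (Th E) F) (σ : Spn)

namespace Levi

theorem perp_add (z : X Z) (a b : X H) : D.perp z (a + b) = D.perp z a + D.perp z b := by
  obtain ⟨A, hA, -⟩ := D.exists_perp_lin z
  simp only [← hA, map_add]

/-- `perp z t = Σ ⟪e_i, t⟫ perp z e_i` and Cauchy–Schwarz. -/
theorem norm_fderiv_perp (u : X E → F) (x : X E) (t : X H) :
    ‖fderiv ℝ u x (liftI 9 D.iH (D.perp (D.zc x) t))‖ ^ 2 ≤ ‖t‖ ^ 2 * D.gperp u x := by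
  obtain ⟨A, hA, -⟩ := D.exists_perp_lin (D.zc x)
  set e := stdOrthonormalBasis ℝ (X H)
  rw [← e.sum_sq_inner_right t, gperp]
  simp only [← hA, ← sq_abs ⟪_, t⟫_ℝ]
  refine le_trans (pow_le_pow_left₀ (norm_nonneg _) ?_ 2) (Finset.sum_mul_sq_le_sq_mul_sq _ _ _)
  conv_lhs => rw [← e.sum_repr' t]
  simp only [map_sum, map_smul]
  exact (norm_sum_le _ _).trans_eq (Finset.sum_congr rfl fun i _ => norm_smul _ _)

theorem sl_zc (h : X H) : D.zc (liftI 9 D.iH h) = 0 := by simpa [asm] using D.zc_asm 0 0 h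

theorem sl_yc (h : X H) : D.yc (liftI 9 D.iH h) = h := by simpa [asm] using D.yc_asm 0 0 h

theorem sl_dPhi (x : X E) (h : X H) : D.dPhi x (liftI 9 D.iH h) = D.Phi (D.zc x) h := by
  simp [dPhi, D.sl_zc, D.sl_yc, Phi, adZ]

theorem sl_cor (x : X E) (h : X H) :
    liftI 9 D.iH (D.cor x h) = -D.gH (D.eta0 x h) (liftI 9 D.iL (D.lc x)) := by
  rw [D.gH_light]; ext i; simp [cor]

theorem sl_kap (x : X E) : ∃ K : X E →ₗ[ℝ] X E, ∀ v, D.kap x v = K v :=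
  ⟨{ toFun := D.kap x
     map_add' := fun a b => by
      ext i; simp [kap, lam, dPhi, Phi, adZ, add_smul, Finset.sum_add_distrib]; abel
     map_smul' := fun r a => by
      ext i; simp [kap, lam, dPhi, Phi, adZ, mul_smul, smul_sub, smul_add, Finset.smul_sum, smul_comm r] },
    fun _ => rfl⟩

theorem norm_cor {κ : ℝ} (hκ : 1 ≤ κ) : ∃ θ₀ B : ℝ, 0 < θ₀ ∧ 0 < B ∧
    ∀ θ, 0 ≤ θ → θ ≤ θ₀ → ∀ x ∈ D.tube κ θ, x ≠ 0 →
      ∀ h, ‖D.cor x h‖ ≤ B * θ * ‖h‖ := by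
  obtain ⟨θ₁, B, h₁, -, hB, H₁⟩ := D.tube_bounds hκ
  refine ⟨θ₁, B ^ 3, h₁, by positivity, fun θ hθ a1 x hx h0 h => ?_⟩
  obtain ⟨-, -, -, -, t1, -, -, t2, -, -, t3⟩ := H₁ θ hθ a1 x hx h0
  have hx0 := norm_pos_iff.2 h0
  have b1 := t2 (liftI 9 D.iH h)
  rw [D.sl_dPhi, D.sl_zc, D.sl_yc, norm_zero, mul_zero, add_zero] at b1
  rw [← (liftI 9 D.iH).norm_map, D.sl_cor, norm_neg]
  calc _ ≤ B * (B / ‖x‖ ^ 2 * (B * (‖x‖ * ‖h‖))) * (θ * ‖x‖) := by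
        refine (t3 _ _).trans ?_
        rw [LinearIsometry.norm_map]
        gcongr
        · exact (ContinuousLinearMap.le_opNorm _ _).trans (by gcongr)
        · linarith [hx.2, norm_nonneg (D.yc x)]
    _ = _ := by field_simp

theorem sl_fin {a s t c : ℝ} (ha : 0 ≤ a) (h : a ≤ c * (s + t)) : a ^ 2 ≤ 2 * c ^ 2 * (s ^ 2 + t ^ 2) := by
  nlinarith [pow_le_pow_left₀ ha h 2, mul_nonneg (sq_nonneg c) (sq_nonneg (s - t))]

theorem sl_gsq (u : X E → F) (x : X E) : 0 ≤ gsq u x := Finset.sum_nonneg fun _ _ => sq_nonneg _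

theorem sl_grad (u : X E → F) (x v : X E) : ‖fderiv ℝ u x v‖ ≤ ‖v‖ * √(gsq u x) :=
  (sq_le_sq₀ (norm_nonneg _) (by positivity)).1 (by
    rw [mul_pow, Real.sq_sqrt (sl_gsq u x), mul_comm]
    exact norm_fderiv_apply_sq_le u x v)

/-- `fderiv_slice`, `tau_eq`, `kap_heavy`, `gH_light`, `tube_bounds`: with `η = eta x (iH h)`,
`τ(iH h) = iH (aH x h) + iH perp (ad(l)(η - η⁰)) - κ(gH η (iH y))`, the last two are `O(‖y‖/ρ)‖h‖`,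
`‖S(ad η)‖ = O(‖h‖/ρ)` (`norm_S_le`). -/
theorem slice_heavy {κ : ℝ} (hκ : 1 ≤ κ) : ∃ θ₀ B : ℝ, 0 < θ₀ ∧ 0 < B ∧
    ∀ θ, 0 ≤ θ → θ ≤ θ₀ → ∀ x ∈ D.tube κ θ, x ≠ 0 →
      ∀ u : X E → F, GaussAt 𝔤 C u x → ∀ h : X H,
        ‖fderiv ℝ u x (liftI 9 D.iH h) - fderiv ℝ u x (liftI 9 D.iH (D.aH x h))‖ ^ 2 ≤
          B * ‖h‖ ^ 2 * D.Err 0 u x := by
  obtain ⟨θ₁, B, h₁, -, hB, H₁⟩ := D.tube_bounds hκ
  obtain ⟨b, hb, Hb⟩ := 𝔤.exists_norm_br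
  obtain ⟨N, hN⟩ : ∃ N : ℝ, N = Module.finrank ℝ (Th E) := ⟨_, rfl⟩
  have n0 : 0 ≤ N := by rw [hN]; positivity
  refine ⟨θ₁, 2 * (2 * B ^ 4 + N / 4 * b * B ^ 2) ^ 2, h₁, by positivity, fun θ hθ a1 x hx h0 u hG h => ?_⟩
  obtain ⟨hz, hD, -, t0, -, t1, -, t2, -, t4, t3⟩ := H₁ θ hθ a1 x hx h0
  have hx0 := norm_pos_iff.2 h0
  have b1 := t2 (liftI 9 D.iH h)
  rw [D.sl_dPhi, D.sl_zc, D.sl_yc, norm_zero, mul_zero, add_zero] at b1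
  obtain ⟨K, hK⟩ := D.sl_kap x
  set η := D.eta x (liftI 9 D.iH h) with hη
  have e1 : D.tau x (liftI 9 D.iH h) - liftI 9 D.iH (D.aH x h) =
      -D.kap x (D.gH (η - D.eta0 x h) (liftI 9 D.iL (D.lc x)) + D.gH η (liftI 9 D.iH (D.yc x))) := by
    have : D.gH (η - D.eta0 x h) (liftI 9 D.iL (D.lc x)) + D.gH η (liftI 9 D.iH (D.yc x)) =
        D.gH η (D.asm 0 (D.lc x) (D.yc x)) - D.gH (D.eta0 x h) (liftI 9 D.iL (D.lc x)) := by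
      ext i; simp [gH, asm]; abel
    rw [D.tau_eq hz hD, aH, ← D.kap_heavy, map_add, D.sl_cor, this]
    simp only [hK, map_add, map_sub, map_neg]
    abel
  have b2 : ‖η‖ ≤ B / ‖x‖ ^ 2 * (B * (‖x‖ * ‖h‖)) := by
    rw [hη, eta, D.sl_dPhi]
    exact (ContinuousLinearMap.le_opNorm _ _).trans (by gcongr)
  have b3 : ‖η - D.eta0 x h‖ ≤ B * ‖D.yc x‖ / ‖x‖ ^ 3 * (B * (‖x‖ * ‖h‖)) := by
    rw [hη, eta, D.sl_dPhi, eta0, ← _root_.sub_apply]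
    exact (ContinuousLinearMap.le_opNorm _ _).trans (by gcongr)
  have b4 : ‖D.tau x (liftI 9 D.iH h) - liftI 9 D.iH (D.aH x h)‖ ≤ 2 * B ^ 4 * ‖h‖ * (‖D.yc x‖ / ‖x‖) := by
    rw [e1, norm_neg]
    calc _ ≤ B * (B * (B * ‖D.yc x‖ / ‖x‖ ^ 3 * (B * (‖x‖ * ‖h‖))) * ‖x‖ +
          B * (B / ‖x‖ ^ 2 * (B * (‖x‖ * ‖h‖))) * ‖D.yc x‖) := by
          refine (t4 _).trans (mul_le_mul_of_nonneg_left ((norm_add_le _ _).trans (add_le_add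
            ((t3 _ _).trans ?_) ((t3 _ _).trans ?_))) hB.le) <;> rw [LinearIsometry.norm_map] <;> gcongr
          exact D.norm_lc_le x
      _ = _ := by field_simp; ring
  have b5 : ‖C.S (lift 16 (𝔤.br (D.iH η))) (u x)‖ ≤ N / 4 * b * B ^ 2 * ‖h‖ * (‖u x‖ / ‖x‖) := by
    calc _ ≤ N / 4 * (b * (B / ‖x‖ ^ 2 * (B * (‖x‖ * ‖h‖)))) * ‖u x‖ := by
          refine (ContinuousLinearMap.le_opNorm _ _).trans (mul_le_mul_of_nonneg_right ?_ (norm_nonneg _))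
          rw [hN]
          refine C.norm_S_le _ _ (by positivity) (norm_lift_le _ _ (by positivity) fun v => (Hb _ v).trans ?_)
          rw [LinearIsometry.norm_map]
          gcongr
      _ = _ := by field_simp
  have b6 := sl_fin (c := (2 * B ^ 4 + N / 4 * b * B ^ 2) * ‖h‖) (s := ‖D.yc x‖ / ‖x‖ * √(gsq u x))
    (t := ‖u x‖ / ‖x‖) (norm_nonneg (fderiv ℝ u x (liftI 9 D.iH h) - fderiv ℝ u x (liftI 9 D.iH (D.aH x h))))
    (by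
      rw [D.fderiv_slice C hG, add_sub_right_comm, ← map_sub]
      refine (norm_add_le _ _).trans ?_
      have := (sl_grad u x _).trans (mul_le_mul_of_nonneg_right b4 (Real.sqrt_nonneg _))
      have p : 0 ≤ 2 * B ^ 4 * ‖h‖ * (‖u x‖ / ‖x‖) +
        N / 4 * b * B ^ 2 * ‖h‖ * (‖D.yc x‖ / ‖x‖ * √(gsq u x)) := by positivity
      linarith)
  rw [mul_pow _ √_, Real.sq_sqrt (sl_gsq u x)] at b6
  refine b6.trans ?_
  rw [mul_pow, ← mul_assoc]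
  gcongr
  have p : 0 ≤ ‖D.yc x‖ ^ 4 * ‖u x‖ ^ 2 := by positivity
  have e : (‖u x‖ / ‖x‖) ^ 2 = 1 / ‖x‖ ^ 2 * ‖u x‖ ^ 2 := by ring
  unfold Err
  rw [div_pow, e]
  linarith

theorem sl_bL (k) : D.yc (D.bL k) = 0 ∧ ‖D.bL k‖ = 1 := by
  rcases k with k | k
  · exact ⟨by simpa [asm, bL] using D.yc_asm (stdOrthonormalBasis ℝ (X Z) k) 0 0, by simp [bL]⟩
  · exact ⟨by simpa [asm, bL] using D.yc_asm 0 (stdOrthonormalBasis ℝ (X L) k) 0, by simp [bL]⟩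

/-- `bL k - κ(bL k) = iH λ(z, Φ(z_k, y)) = O(‖y‖/ρ)`. -/
theorem slice_light {κ : ℝ} (hκ : 1 ≤ κ) : ∃ θ₀ B : ℝ, 0 < θ₀ ∧ 0 < B ∧
    ∀ θ, 0 ≤ θ → θ ≤ θ₀ → ∀ x ∈ D.tube κ θ, x ≠ 0 →
      ∀ k, ‖D.bL k - D.VB k x‖ ≤ B * ‖D.yc x‖ / ‖x‖ := by
  obtain ⟨θ₁, B, h₁, -, hB, H₁⟩ := D.tube_bounds hκ
  refine ⟨θ₁, B * B, h₁, by positivity, fun θ hθ a1 x hx h0 k => ?_⟩
  obtain ⟨-, -, -, -, -, -, -, t2, t3, -⟩ := H₁ θ hθ a1 x hx h0
  have b1 := t2 (D.bL k)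
  have b2 := (D.norm_zc_le (D.bL k)).trans_eq (D.sl_bL k).2
  rw [(D.sl_bL k).1, norm_zero, mul_zero, zero_add] at b1
  rw [VB, kap, sub_sub_cancel, LinearIsometry.norm_map, mul_assoc]
  refine (t3 _).trans ?_
  gcongr
  exact b1.trans (by gcongr; exact mul_le_of_le_one_right (norm_nonneg _) b2)

theorem sl_sum {ι : Type} [Fintype ι] {a : ι → Th E} (ha : ∀ i, ‖a i‖ = 1) {f : ι → F} {c : ℝ}
    (h : ∀ i, ‖f i‖ ≤ c) : ‖∑ i, (-Complex.I) • C.θ (a i) (f i)‖ ≤ Fintype.card ι * c :=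
  (norm_sum_le _ _).trans ((Finset.sum_le_card_nsmul _ _ _ fun j _ => by
    rw [norm_smul, norm_neg, Complex.norm_I, one_mul]
    exact (C.norm_θ_le _ _).trans (by rw [ha, one_mul]; exact h j)).trans
    (by rw [nsmul_eq_mul, Finset.card_univ]))

/-- `sum_onb_split` for the kinetic term, `wd_asm` for the potential (`‖w(iH y)‖ ≤ b‖y‖²`,
`ε²‖y‖² ≤ ε + ‖y‖⁴`). -/
theorem split_Q {κ : ℝ} (hκ : 1 ≤ κ) : ∃ θ₀ B : ℝ, 0 < θ₀ ∧ 0 < B ∧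
    ∀ θ, 0 ≤ θ → θ ≤ θ₀ → ∀ x ∈ D.tube κ θ, x ≠ 0 →
      ∀ ε, 0 ≤ ε → ε ≤ 1 → ∀ u : X E → F, GaussAt 𝔤 C u x →
        ‖Qe 𝔤 C σ ε u x - (D.opA C σ u x + D.opB C σ ε u x)‖ ^ 2 ≤ B * D.Err ε u x := by
  obtain ⟨θ₁, B₁, h₁, hB₁, H₁⟩ := D.slice_heavy C hκ
  obtain ⟨θ₂, B₂, h₂, hB₂, H₂⟩ := D.slice_light hκ
  obtain ⟨b, hb, Hb⟩ := exists_norm_wpot 𝔤 σ.G σ.unit
  obtain ⟨N, hN⟩ : ∃ N : ℝ, N = Fintype.card (Fin (Module.finrank ℝ (X H))) := ⟨_, rfl⟩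
  obtain ⟨N', hN'⟩ : ∃ N : ℝ, N = Fintype.card
    (Fin (Module.finrank ℝ (X Z)) ⊕ Fin (Module.finrank ℝ (X L))) := ⟨_, rfl⟩
  have n0 : 0 ≤ N := by rw [hN]; positivity
  have n0' : 0 ≤ N' := by rw [hN']; positivity
  refine ⟨min θ₁ θ₂, (N * √B₁ + N' * B₂ + b + 4) ^ 2, by positivity, by positivity,
    fun θ hθ hθ' x hx h0 ε hε hε1 u hG => ?_⟩
  simp only [le_min_iff] at hθ'
  have e1 := D.sum_onb_split (LinearMap.mk₂ ℝ
    (fun a v => (-Complex.I) • C.θ (cmap σ.G σ.s a) (fderiv ℝ u x v))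
    (fun _ _ _ => by simp) (fun r _ _ => by simp [smul_comm r]) (fun _ _ _ => by simp)
    (fun r _ _ => by simp [smul_comm r]))
  have e2 := D.wd_asm σ ε (D.zc x) (D.lc x) (D.yc x)
  rw [D.asm_eq] at e2
  simp only [LinearMap.mk₂_apply] at e1
  have e : Qe 𝔤 C σ ε u x - (D.opA C σ u x + D.opB C σ ε u x) =
      ∑ i, (-Complex.I) • C.θ (D.cH σ i) (fderiv ℝ u x (liftI 9 D.iH (stdOrthonormalBasis ℝ (X H) i)) -
        fderiv ℝ u x (D.VA i x)) +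
      ∑ k, (-Complex.I) • C.θ (cmap σ.G σ.s (D.bL k)) (fderiv ℝ u x (D.bL k - D.VB k x)) +
      C.θ (wpot 𝔤 σ.G σ.s (liftI 9 D.iH (D.yc x))) (u x) +
      C.θ (liftI 16 D.iH (ε • cmap σ.G σ.s (mat V0 (D.yc x)))) (u x) := by
    simp only [Qd, dirac, e1, e2, opA, opB, fop, wA, wA0, wB, cH, map_add, map_sub, smul_sub,
      Finset.sum_sub_distrib, _root_.add_apply, Fintype.sum_sum_type, bL, Sum.elim_inl, Sum.elim_inr]
    abel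
  have e0 := D.Err_nonneg hε u x
  have g0 : 0 ≤ ‖D.yc x‖ ^ 2 / ‖x‖ ^ 2 * gsq u x :=
    mul_nonneg (by positivity) (Finset.sum_nonneg fun _ _ => sq_nonneg _)
  have sq : ∀ {a : ℝ}, a ^ 2 ≤ D.Err ε u x → a ≤ √(D.Err ε u x) := fun h => Real.le_sqrt_of_sq_le h
  have p1 : 0 ≤ 1 / ‖x‖ ^ 2 * ‖u x‖ ^ 2 := by positivity
  have p2 : 0 ≤ ‖D.yc x‖ ^ 4 * ‖u x‖ ^ 2 := by positivity
  have p3 : 0 ≤ ε * ‖u x‖ ^ 2 := by positivity
  have s1 : ‖D.yc x‖ / ‖x‖ * √(gsq u x) ≤ _ := sq (by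
    rw [mul_pow, Real.sq_sqrt (sl_gsq u x), div_pow]
    unfold Err; linarith)
  have s2 : ‖D.yc x‖ ^ 2 * ‖u x‖ ≤ _ := sq (by unfold Err; linarith)
  have s3 : ε * ‖D.yc x‖ * ‖u x‖ ≤ _ := sq (by
    have : ε ^ 2 * ‖D.yc x‖ ^ 2 ≤ ε + ‖D.yc x‖ ^ 4 := by
      nlinarith [sq_nonneg (ε ^ 2 - ‖D.yc x‖ ^ 2), pow_le_of_le_one hε hε1 four_ne_zero]
    have := mul_le_mul_of_nonneg_right this (sq_nonneg ‖u x‖)
    unfold Err; linarith)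
  have b1 := sl_sum C (D.norm_cH σ) (c := √B₁ * √(D.Err ε u x)) fun i => by
    rw [← Real.sqrt_mul hB₁.le]
    refine Real.le_sqrt_of_sq_le ((H₁ θ hθ hθ'.1 x hx h0 u hG (stdOrthonormalBasis ℝ (X H) i)).trans ?_)
    rw [OrthonormalBasis.norm_eq_one, one_pow, mul_one]
    unfold Err; gcongr
  have b2 := sl_sum C (D.norm_cB σ) (c := B₂ * √(D.Err ε u x)) fun k =>
    (sl_grad u x _).trans ((mul_le_mul_of_nonneg_right (H₂ θ hθ hθ'.2 x hx h0 k) (Real.sqrt_nonneg _)).trans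
      (by rw [mul_div_assoc, mul_assoc]; gcongr))
  have b3 : ‖C.θ (wpot 𝔤 σ.G σ.s (liftI 9 D.iH (D.yc x))) (u x)‖ ≤ b * √(D.Err ε u x) := by
    refine (C.norm_θ_le _ _).trans ((mul_le_mul_of_nonneg_right (Hb _ 0).1 (norm_nonneg _)).trans ?_)
    rw [LinearIsometry.norm_map, mul_assoc]; gcongr
  have b4 : ‖C.θ (liftI 16 D.iH (ε • cmap σ.G σ.s (mat V0 (D.yc x)))) (u x)‖ ≤ 4 * √(D.Err ε u x) := by
    refine (C.norm_θ_le _ _).trans ?_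
    rw [LinearIsometry.norm_map, norm_smul, norm_cmap σ.G σ.unit, Real.norm_of_nonneg hε]
    have := mul_le_mul_of_nonneg_left (norm_V0_le (D.yc x)) (mul_nonneg hε (norm_nonneg (u x)))
    linarith
  rw [← hN] at b1
  rw [← hN'] at b2
  rw [e, ← Real.sq_sqrt e0, ← mul_pow]
  refine pow_le_pow_left₀ (norm_nonneg _) ((norm_add_le _ _).trans ((add_le_add ((norm_add_le _ _).trans
    (add_le_add ((norm_add_le _ _).trans (add_le_add b1 b2)) b3)) b4).trans_eq (by ring))) 2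

end Levi

end Crest.Agent.R330

end
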