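import Crest.Agent.R330.BF.Smooth
import Crest.Agent.R330.BF.Slice
import Crest.Agent.R330.BF.Odd

/-! # Row 330, block BF/A0: the square of `A₀`, pointwise (owner helper3; statements frozen) -/

set_option autoImplicit false
set_option linter.unusedSectionVars false

noncomputable section

open MeasureTheory Filter Topology
open scoped InnerProductSpace ContDiff Matrix
open Crest.MathPhysics.MatrixQM (GammaNine)

namespace Crest.Agent.R330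

variable {E Z L H F : Type}
  [NormedAddCommGroup E] [InnerProductSpace ℝ E] [FiniteDimensional ℝ E]
  [NormedAddCommGroup Z] [InnerProductSpace ℝ Z] [FiniteDimensional ℝ Z]
  [NormedAddCommGroup L] [InnerProductSpace ℝ L] [FiniteDimensional ℝ L]
  [NormedAddCommGroup H] [InnerProductSpace ℝ H] [FiniteDimensional ℝ H]
  [NormedAddCommGroup F] [InnerProductSpace ℂ F] [FiniteDimensional ℂ F]
  [MeasurableSpace E] [BorelSpace E] [MeasurableSpace Z] [BorelSpace Z]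
  [MeasurableSpace L] [BorelSpace L] [MeasurableSpace H] [BorelSpace H]
  {P : Type} [Fintype P] {𝔤 : Lie E} (D : Levi 𝔤 Z L H P) (C : Cl (Th E) F) (σ : Spn)

namespace Levi

/-- `fderiv_wpot_central`, `isCx_J`, `norm_cmap`, `mat_lift`. -/
theorem norm_wA0_sq {x : X E} (hz : D.zc x ∈ D.reg) : ‖D.wA0 σ x‖ ^ 2 = D.msq x := by
  have hJ := D.isCx_J σ.G hz
  have n : ∀ v, ‖D.J σ.G (D.zc x) v‖ ^ 2 = ‖v‖ ^ 2 := fun v => by
    rw [← real_inner_self_eq_norm_sq, hJ.1, hJ.2, inner_neg_right, neg_neg, real_inner_self_eq_norm_sq]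
  rw [wA0, D.fderiv_wpot_central σ.G σ.s hz, LinearIsometry.norm_map, n, msq,
    ← norm_cmap σ.G σ.unit (lift 9 _ _)]
  congr 2
  exact (LinearMap.congr_fun (mat_lift _ _) _).symm

theorem a0_line {Y W : Type} [NormedAddCommGroup Y] [NormedSpace ℝ Y] [NormedAddCommGroup W]
    [NormedSpace ℝ W] {f : Y → W} {x v : Y} {w : W} (hf : DifferentiableAt ℝ f x)
    (h : ∀ t : ℝ, f (x + t • v) = f x + t • w) : fderiv ℝ f x v = w := by
  refine (hf.hasFDerivAt.hasLineDerivAt v).unique ?_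
  unfold HasLineDerivAt
  simp only [h]
  simpa using ((hasDerivAt_id (0 : ℝ)).smul_const w).const_add (f x)

theorem a0_zc (h : X H) : D.zc (liftI 9 D.iH h) = 0 := by simpa [asm] using D.zc_asm 0 0 h

theorem a0_yc (h : X H) : D.yc (liftI 9 D.iH h) = h := by simpa [asm] using D.yc_asm 0 0 h

/-- `wA0` is linear in `y`. -/
theorem fderiv_wA0 (x : X E) (h : X H) : fderiv ℝ (D.wA0 σ) x (liftI 9 D.iH h) =
    fderiv ℝ (wpot 𝔤 σ.G σ.s) (liftI 9 D.iZ (D.zc x)) (liftI 9 D.iH h) :=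
  a0_line ((D.contDiff_wA0 σ).differentiable (by simp) x) fun t => by
    simp only [wA0, map_add, map_smul, D.a0_zc, D.a0_yc, smul_zero, add_zero]

/-- Zero and first order terms of `A₀²`.  `heavy_bilinear` (replace `c e_i` by `c perp e_i`: for the
symmetric idempotent `perp`, `Σ B(e_i, perp e_i) = Σ B(perp e_i, perp e_i)`), `heavy_first_order`
(`Σ ⟪c e_i, α⟫ perp e_i = -ad(z₈) y^⊥`), and `y - y^⊥ = λΦ`. -/
theorem A0_low_order {x : X E} (hz : D.zc x ∈ D.reg) (v : X E → F)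
    (hG : fderiv ℝ v x (liftI 9 D.iH (lift 9 (D.adZ (D.zc x 8)) (D.yc x))) =
      (D.CH C).S (lift 16 (D.adZ (D.zc x 8))) (v x)) :
    ∑ i, (-Complex.I) • (C.θ (D.cH σ i) (C.θ (fderiv ℝ (D.wA0 σ) x (D.VA0 i x)) (v x)) +
        ((⟪D.cH σ i, D.wA0 σ x⟫_ℝ : ℝ) : ℂ) • fderiv ℝ v x (D.VA0 i x)) =
      (D.CH C).iS (D.J σ.G (D.zc x) ∘ₗ lift 16 (D.Mop (D.zc x))) (v x) -
        Complex.I • fderiv ℝ v x (liftI 9 D.iH (D.rvec x)) := by
  obtain ⟨A, hA, hs, hi, -⟩ := D.exists_perp_lin (D.zc x)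
  have hi := hi hz
  set e := stdOrthonormalBasis ℝ (X H) with he
  set T : X H →ₗ[ℝ] Th H := D.J σ.G (D.zc x) ∘ₗ lift 16 (D.Mop (D.zc x)) ∘ₗ cmap σ.G σ.s with hT
  have hA' : LinearMap.adjoint A = A := ((LinearMap.eq_adjoint_iff A A).2 hs).symm
  have h1 : ∀ i, C.θ (D.cH σ i) (C.θ (fderiv ℝ (D.wA0 σ) x (D.VA0 i x)) (v x)) =
      ((D.CH C).θ (cmap σ.G σ.s (e i)) * (D.CH C).θ ((T ∘ₗ A) (e i))) (v x) := fun i => by
    rw [VA0, D.fderiv_wA0, D.fderiv_wpot_central σ.G σ.s hz, cH, D.cmap_iH, ← hA, ← hA, hi]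
    rfl
  have h2 : ∑ i, (D.CH C).θ (cmap σ.G σ.s (e i)) * (D.CH C).θ ((T ∘ₗ A) (e i)) =
      ∑ i, (D.CH C).θ ((cmap σ.G σ.s ∘ₗ A) (e i)) * (D.CH C).θ ((T ∘ₗ A) (e i)) := by
    rw [he, Cl.sum_θθ, Cl.sum_θθ, LinearMap.adjoint_comp, hA']
    congr 2
    ext1 w
    simp only [LinearMap.comp_apply, hi]
  have h3 := D.heavy_bilinear C σ hz
  simp only [← hA] at h3
  have h4 : ∑ i, ⟪D.cH σ i, D.wA0 σ x⟫_ℝ • A (e i) =
      -lift 9 (D.adZ (D.zc x 8)) (D.perp (D.zc x) (D.yc x)) := by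
    refine ext_inner_left ℝ fun h => ?_
    rw [inner_neg_right, ← D.heavy_first_order σ hz, inner_sum, ← hA h]
    conv_rhs => rw [← e.sum_repr' (A h), map_sum, sum_inner]
    refine Finset.sum_congr rfl fun i _ => ?_
    rw [inner_smul_right, map_smul, real_inner_smul_left, ← hs, real_inner_comm (A h), mul_comm, wA0,
      D.fderiv_wpot_central σ.G σ.s hz, cH, D.cmap_iH, LinearIsometry.inner_map_map]
  have h5 : ∑ i, ((⟪D.cH σ i, D.wA0 σ x⟫_ℝ : ℝ) : ℂ) • fderiv ℝ v x (D.VA0 i x) =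
      fderiv ℝ v x (liftI 9 D.iH (D.rvec x)) - (D.CH C).S (lift 16 (D.adZ (D.zc x 8))) (v x) := by
    rw [← hG, ← map_sub, ← map_sub, rvec, ← map_sub, ← neg_sub, map_neg]
    change _ = fderiv ℝ v x (liftI 9 D.iH (-lift 9 (D.adZ (D.zc x 8)) (D.perp (D.zc x) (D.yc x))))
    rw [← h4, map_sum, map_sum]
    refine Finset.sum_congr rfl fun i _ => ?_
    rw [map_smul, map_smul, VA0, ← hA, Complex.coe_smul]
  rw [← Finset.smul_sum, Finset.sum_add_distrib, h5]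
  simp only [h1]
  rw [← _root_.sum_apply, h2, smul_add, ← _root_.smul_apply]
  erw [h3]
  simp only [Cl.iS, _root_.sub_apply, _root_.smul_apply]
  module

theorem a0_adZ : ∃ b : ℝ, 0 < b ∧ ∀ a v, ‖D.adZ a v‖ ≤ b * ‖a‖ * ‖v‖ := by
  obtain ⟨b, hb, h⟩ := 𝔤.exists_norm_br
  refine ⟨b, hb, fun a v => ?_⟩
  have := h (D.iZ a) (D.iH v)
  rw [D.brZH, D.iH.norm_map] at this
  simpa [adZ] using this

theorem a0_ge {n : ℕ} {z : X Z} {lm : ℝ} (h : ∀ p, lm ≤ D.M p z) (v : T n H) :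
    lm * ‖v‖ ^ 2 ≤ ⟪v, lift n (D.Mop z) v⟫_ℝ := by
  rw [← real_inner_self_eq_norm_sq, PiLp.inner_apply, PiLp.inner_apply, Finset.mul_sum]
  refine Finset.sum_le_sum fun i _ => ?_
  conv_lhs => enter [2, 3]; rw [← D.pr_sum (v i)]
  simp only [lift_apply, Mop, LinearMap.sum_apply, LinearMap.smul_apply, inner_sum, inner_smul_right,
    Finset.mul_sum]
  refine Finset.sum_le_sum fun p _ => mul_le_mul_of_nonneg_right (h p) ?_
  rw [← D.pr_idem, ← D.pr_sym]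
  exact real_inner_self_nonneg

/-- `‖rvec x‖ ≤ B`; `slice_heavy` with `h = rvec x`, `fderiv_odd`, `norm_half_sub_Gam`,
`norm_fderiv_perp`, `norm_cor`. -/
theorem rem_bound {κ : ℝ} (hκ : 1 ≤ κ) : ∃ θ₀ B : ℝ, 0 < θ₀ ∧ 0 < B ∧
    ∀ θ, 0 ≤ θ → θ ≤ θ₀ → ∀ x ∈ D.tube κ θ, x ≠ 0 →
      ‖D.Phi (D.zc x) (D.yc x)‖ < 1 → ∀ u : X E → F, DifferentiableAt ℝ u x → GaussAt 𝔤 C u x →
        ‖fderiv ℝ (D.odd C u) x (liftI 9 D.iH (D.rvec x))‖ ^ 2 ≤
          B * (D.gperp (D.odd C u) x + D.Err 0 u x) := by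
  obtain ⟨θ₁, B₁, h₁, h₁', hB₁, H₁⟩ := D.tube_bounds hκ
  obtain ⟨θ₂, B₂, h₂, hB₂, H₂⟩ := D.slice_heavy C hκ
  obtain ⟨θ₃, B₃, h₃, hB₃, H₃⟩ := D.norm_cor hκ
  obtain ⟨b, hb, Hb⟩ := D.a0_adZ
  refine ⟨min θ₁ (min θ₂ θ₃), 2 * (b * B₁) ^ 2 * ((1 + B₃) ^ 2 + B₂), by positivity, by positivity,
    fun θ hθ hθ' x hx h0 hΦ u du hG => ?_⟩
  simp only [le_min_iff] at hθ'
  obtain ⟨a1, a2, a3⟩ := hθ'
  have hx0 := norm_pos_iff.2 h0
  have r1 : ‖D.rvec x‖ ≤ b * B₁ := by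
    refine (norm_lift_le _ (b * ‖x‖) (by positivity) (fun v => (Hb _ v).trans ?_) _).trans ?_
    · gcongr
      exact (PiLp.norm_apply_le _ _).trans (D.norm_zc_le x)
    · calc _ ≤ b * ‖x‖ * (B₁ * 1 / ‖x‖) := by
            gcongr
            exact ((H₁ θ hθ a1 x hx h0).2.2.2.2.2.2.2.2.1 _).trans (by gcongr)
        _ = _ := by field_simp
  have r2 : ‖D.rvec x + D.cor x (D.rvec x)‖ ≤ (1 + B₃) * (b * B₁) := by
    have := H₃ θ hθ a3 x hx h0 (D.rvec x)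
    have h2 : B₃ * θ * ‖D.rvec x‖ ≤ B₃ * 1 * (b * B₁) := by gcongr; linarith
    linarith [norm_add_le (D.rvec x) (D.cor x (D.rvec x))]
  have g0 := D.gperp_nonneg (D.odd C u) x
  have e0 := D.Err_nonneg le_rfl u x
  have b1 := (D.norm_fderiv_perp (D.odd C u) x (D.rvec x + D.cor x (D.rvec x))).trans
    (mul_le_mul_of_nonneg_right (pow_le_pow_left₀ (norm_nonneg _) r2 2) g0)
  have b2 := (H₂ θ hθ a2 x hx h0 u hG (D.rvec x)).trans (mul_le_mul_of_nonneg_right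
    (mul_le_mul_of_nonneg_left (pow_le_pow_left₀ (norm_nonneg _) r1 2) hB₂.le) e0)
  have b3 := D.norm_half_sub_Gam C (fderiv ℝ u x (liftI 9 D.iH (D.rvec x)) -
    fderiv ℝ u x (liftI 9 D.iH (D.aH x (D.rvec x))))
  rw [map_sub (D.Gam C), sub_sub_sub_comm, smul_sub, ← D.fderiv_odd C du, ← D.fderiv_odd C du] at b3
  have b4 := (norm_le_insert' _ _).trans (add_le_add le_rfl b3)
  have b5 := pow_le_pow_left₀ (norm_nonneg _) b4 2
  have p1 : 0 ≤ (b * B₁) ^ 2 * B₂ * D.gperp (D.odd C u) x := by positivity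
  have p2 : 0 ≤ (b * B₁) ^ 2 * (1 + B₃) ^ 2 * D.Err 0 u x := by positivity
  unfold aH at *
  nlinarith [sq_nonneg (‖fderiv ℝ (D.odd C u) x (liftI 9 D.iH (D.perp (D.zc x)
    (D.rvec x + D.cor x (D.rvec x))))‖ - ‖fderiv ℝ u x (liftI 9 D.iH (D.rvec x)) - fderiv ℝ u x
      (liftI 9 D.iH (D.perp (D.zc x) (D.rvec x + D.cor x (D.rvec x))))‖)]

/-- `iS_gap` with `B = lift 16 (Mop z)`, `lm = ‖x‖/κ`, `tr B = 16 Σ m_p M_p`. -/
theorem fermion_gap {κ θ : ℝ} (hκ : 1 ≤ κ) {x : X E} (hx : x ∈ D.tube κ θ) (hz : D.zc x ∈ D.reg)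
    {a : F} (ha : D.Pi C σ.G (D.zc x) a = 0) :
    (‖x‖ / κ - 4 * D.sM x) * ‖a‖ ^ 2 ≤
      (⟪a, (D.CH C).iS (D.J σ.G (D.zc x) ∘ₗ lift 16 (D.Mop (D.zc x))) a⟫_ℂ).re := by
  classical
  have hκ0 : 0 < κ := by linarith
  have hc : ∀ p q v, D.pr p (D.pr q v) = D.pr q (D.pr p v) := fun p q v => by
    by_cases h : p = q
    · rw [h]
    · rw [D.pr_orth p q h, D.pr_orth q p (Ne.symm h)]
  have key := (D.CH C).iS_gap (D.isCx_J σ.G hz) (B := lift 16 (D.Mop (D.zc x)))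
    (fun u v => by
      simp only [PiLp.inner_apply, lift_apply, Mop, LinearMap.sum_apply, LinearMap.smul_apply, inner_sum,
        sum_inner, inner_smul_right, real_inner_smul_left, D.pr_sym])
    (by
      ext v i
      simp only [J, Mop, LinearMap.comp_apply, LinearMap.sum_apply, LinearMap.smul_apply, lift_apply,
        mat_apply, map_sum, map_smul, WithLp.ofLp_sum, WithLp.ofLp_smul, Finset.sum_apply, Pi.smul_apply,
        ← D.I_pr, hc])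
    (‖x‖ / κ) (by positivity) (D.a0_ge fun p => by rw [div_le_iff₀' hκ0]; exact hx.1 p) a
  have ht : LinearMap.trace ℝ (Th H) (lift 16 (D.Mop (D.zc x))) = 16 * D.sM x := by
    have := trace_mat_lift (1 : Matrix (Fin 16) (Fin 16) ℝ) (D.Mop (D.zc x))
    rw [mat_one, LinearMap.id_comp] at this
    rw [this, Mop, map_sum, sM]
    simp [D.trace_pr, mul_comm]
  rw [ht] at key
  change _ + _ * (_ - ‖D.Pi C σ.G (D.zc x) a‖ ^ 2) ≤ _ at key
  rw [ha, norm_zero] at key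
  linarith

/-- `norm_sq_perp_lam`, `norm_lam_sq`, `M_p ≥ ‖x‖/κ`; `exists_M_le`. -/
theorem msq_lower {κ : ℝ} (hκ : 1 ≤ κ) : ∃ θ₀ B : ℝ, 0 < θ₀ ∧ 0 < B ∧
    ∀ θ, 0 ≤ θ → θ ≤ θ₀ → ∀ x ∈ D.tube κ θ, x ≠ 0 →
      D.sM x ≤ B * ‖x‖ ∧ (‖D.Phi (D.zc x) (D.yc x)‖ < 1 →
        ‖x‖ ^ 2 * ‖D.yc x‖ ^ 2 ≤ B * (D.msq x + 1)) := by
  obtain ⟨θ₁, B₁, h₁, -, hB₁, H₁⟩ := D.tube_bounds hκ
  obtain ⟨b, hb, Hb⟩ := D.exists_M_le
  have hκ0 : 0 < κ := by linarith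
  have hm : (0 : ℝ) ≤ ∑ p, D.m p := by positivity
  refine ⟨θ₁, (∑ p, D.m p) * b + κ ^ 2 + B₁ ^ 2, h₁, by positivity, fun θ hθ a1 x hx h0 => ⟨?_, fun hΦ => ?_⟩⟩
  · have : D.sM x ≤ (∑ p, D.m p) * b * ‖x‖ := by
      rw [sM, mul_assoc, Nat.cast_sum, Finset.sum_mul]
      refine Finset.sum_le_sum fun p _ => mul_le_mul_of_nonneg_left ((Hb p _).trans ?_) (by positivity)
      gcongr
      exact D.norm_zc_le x
    have h2 : 0 ≤ (κ ^ 2 + B₁ ^ 2) * ‖x‖ := by positivity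
    linarith
  · have hx0 := norm_pos_iff.2 h0
    obtain ⟨hz, -, -, -, -, -, -, -, hl, -⟩ := H₁ θ hθ a1 x hx h0
    have b1 : ‖x‖ * ‖D.lam (D.zc x) (D.Phi (D.zc x) (D.yc x))‖ ≤ B₁ * 1 :=
      ((le_div_iff₀' hx0).1 (hl _)).trans (by gcongr)
    have b2 := (D.a0_ge (lm := ‖x‖ / κ) (fun p => by rw [div_le_iff₀' hκ0]; exact hx.1 p)
      (D.perp (D.zc x) (D.yc x))).trans (real_inner_le_norm _ _)
    have b3 : ‖x‖ * ‖D.perp (D.zc x) (D.yc x)‖ ≤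
        κ * ‖lift 9 (D.Mop (D.zc x)) (D.perp (D.zc x) (D.yc x))‖ := by
      rcases (norm_nonneg (D.perp (D.zc x) (D.yc x))).eq_or_lt with h | h
      · rw [← h, mul_zero]; positivity
      · rw [div_mul_eq_mul_div, div_le_iff₀ hκ0] at b2
        exact le_of_mul_le_mul_left (by linarith) h
    have b4 := pow_le_pow_left₀ (by positivity) b1 2
    have b5 := pow_le_pow_left₀ (by positivity) b3 2
    have m0 : 0 ≤ D.msq x := sq_nonneg _
    have p1 : 0 ≤ (∑ p, D.m p) * b * (D.msq x + 1) + κ ^ 2 + B₁ ^ 2 * D.msq x := by positivity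
    rw [D.norm_sq_perp_lam hz]
    unfold msq at *
    nlinarith

end Levi

end Crest.Agent.R330

end
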