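import Crest.Agent.R330.BF.Smooth
import Crest.Agent.R330.BF.Odd

/-! # Row 330, block BF/Gd: integrability (owner helper3; statements frozen) -/

set_option autoImplicit false
set_option linter.unusedSectionVars false

noncomputable section

open MeasureTheory Filter Topology
open scoped InnerProductSpace ContDiff Matrix
open Crest.MathPhysics.MatrixQM (GammaNine)

namespace Crest.Agent.R330

variable {E Z L H F : Type}
  [NormedAddCommGroup E] [InnerProductSpace ℝ E] [FiniteDimensional ℝ E]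
  [NormedAddCommGroup Z] [InnerProductSpace ℝ Z] [FiniteDimensional ℝ Z]
  [NormedAddCommGroup L] [InnerProductSpace ℝ L] [FiniteDimensional ℝ L]
  [NormedAddCommGroup H] [InnerProductSpace ℝ H] [FiniteDimensional ℝ H]
  [NormedAddCommGroup F] [InnerProductSpace ℂ F] [FiniteDimensional ℂ F]
  [MeasurableSpace E] [BorelSpace E] [MeasurableSpace Z] [BorelSpace Z]
  [MeasurableSpace L] [BorelSpace L] [MeasurableSpace H] [BorelSpace H]
  {P : Type} [Fintype P] {𝔤 : Lie E} (D : Levi 𝔤 Z L H P) (C : Cl (Th E) F) (σ : Spn)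

namespace Levi

theorem tube_Ureg {κ : ℝ} (hκ : 1 ≤ κ) : ∃ θ₀ : ℝ, 0 < θ₀ ∧
    ∀ θ, 0 ≤ θ → θ ≤ θ₀ → ∀ x ∈ D.tube κ θ, x ≠ 0 → x ∈ D.Ureg := by
  obtain ⟨θ₀, B, h0, -, -, h⟩ := D.tube_bounds hκ
  exact ⟨θ₀, h0, fun θ a b x hx h0 => ⟨(h θ a b x hx h0).1, (h θ a b x hx h0).2.2.1⟩⟩

variable {D C} in
theorem Loc2.ne {κ θ R : ℝ} {u : X E → F} (hu : D.Loc2 C κ θ R u) (hR : 0 < R) {x : X E}
    (hx : x ∈ tsupport u) : x ≠ 0 := norm_pos_iff.1 (hR.trans_le (hu.2.1 x hx).2.1)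

theorem continuous_yc : Continuous D.yc := D.yc.continuous_of_finiteDimensional

theorem gd_gperp {K : Set (X E)} (hK : K ⊆ D.Ureg) {v : X E → F} (hv : Core v) (hs : tsupport v ⊆ K) :
    Gd K (D.gperp v) :=
  Gd.sum fun i => (Gd.fderiv hv hs ((D.contDiffOn_VA0 i).continuousOn.mono hK)).norm_sq

theorem gd_Ecal {K : Set (X E)} (hK : K ⊆ D.Ureg) {v : X E → F} (hv : Core v) (hs : tsupport v ⊆ K) :
    Gd K (D.Ecal v) :=
  (D.gd_gperp hK hv hs).add ((Gd.of_core hv hs).norm_sq.mul_left (by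
    have := D.continuous_yc; fun_prop))

theorem gd_Err {K : Set (X E)} (hK : ∀ x ∈ K, x ≠ 0) (ε : ℝ) {v : X E → F} (hv : Core v)
    (hs : tsupport v ⊆ K) : Gd K (D.Err ε v) := by
  have := D.continuous_yc
  have h : ∀ x ∈ K, ‖x‖ ^ 2 ≠ 0 := fun x hx => pow_ne_zero _ (norm_ne_zero_iff.2 (hK x hx))
  exact ((Gd.gsq hv hs).mul_left (ContinuousOn.div (by fun_prop) (by fun_prop) h)).add
    ((Gd.of_core hv hs).norm_sq.mul_left
      ((ContinuousOn.add (by fun_prop) (ContinuousOn.div (by fun_prop) (by fun_prop) h)).add (by fun_prop)))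

theorem CU_opA {v : X E → F} (hv : CU D.Ureg v) : CU D.Ureg (D.opA C σ v) :=
  hv.fop C _ D.isOpen_Ureg D.contDiffOn_VA (D.contDiff_wA σ).contDiffOn

theorem CU_opA0 {v : X E → F} (hv : CU D.Ureg v) : CU D.Ureg (D.opA0 C σ v) :=
  hv.fop C _ D.isOpen_Ureg D.contDiffOn_VA0 (D.contDiff_wA0 σ).contDiffOn

theorem CU_opB (ε : ℝ) {v : X E → F} (hv : CU D.Ureg v) : CU D.Ureg (D.opB C σ ε v) :=
  hv.fop C _ D.isOpen_Ureg D.contDiffOn_VB (D.contDiff_wB σ ε).contDiffOn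

theorem gd_Qe (ε : ℝ) {u : X E → F} (hu : Core u) : Gd (tsupport u) (Qe 𝔤 C σ ε u) :=
  Gd.of_core (hu.dirac C _ (contDiff_wd 𝔤 σ ε contDiff_const)) (tsupport_dirac_subset _ _ _ _)

theorem le_Err {ε : ℝ} (hε : 0 ≤ ε) (u : X E → F) (x : X E) : ‖u x‖ ^ 2 / ‖x‖ ^ 2 ≤ D.Err ε u x := by
  have h1 : 0 ≤ ‖D.yc x‖ ^ 2 / ‖x‖ ^ 2 * gsq u x :=
    mul_nonneg (by positivity) (Finset.sum_nonneg fun _ _ => sq_nonneg _)
  have h2 : 0 ≤ (‖D.yc x‖ ^ 4 + ε) * ‖u x‖ ^ 2 := by positivity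
  have e : ‖u x‖ ^ 2 / ‖x‖ ^ 2 = 1 / ‖x‖ ^ 2 * ‖u x‖ ^ 2 := by ring
  unfold Err; linarith

end Levi

end Crest.Agent.R330

end
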