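import Crest.Agent.R330.BF.A0
import Crest.Agent.R330.BF.Gd

/-! # Row 330, block BF/Lie: brackets (owner helper3; statements frozen) -/

set_option autoImplicit false
set_option linter.unusedSectionVars false

noncomputable section

open MeasureTheory Filter Topology
open scoped InnerProductSpace ContDiff Matrix
open Crest.MathPhysics.MatrixQM (GammaNine)

namespace Crest.Agent.R330

variable {E Z L H F : Type}
  [NormedAddCommGroup E] [InnerProductSpace ℝ E] [FiniteDimensional ℝ E]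
  [NormedAddCommGroup Z] [InnerProductSpace ℝ Z] [FiniteDimensional ℝ Z]
  [NormedAddCommGroup L] [InnerProductSpace ℝ L] [FiniteDimensional ℝ L]
  [NormedAddCommGroup H] [InnerProductSpace ℝ H] [FiniteDimensional ℝ H]
  [NormedAddCommGroup F] [InnerProductSpace ℂ F] [FiniteDimensional ℂ F]
  [MeasurableSpace E] [BorelSpace E] [MeasurableSpace Z] [BorelSpace Z]
  [MeasurableSpace L] [BorelSpace L] [MeasurableSpace H] [BorelSpace H]
  {P : Type} [Fintype P] {𝔤 : Lie E} (D : Levi 𝔤 Z L H P) (C : Cl (Th E) F) (σ : Spn)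

namespace Levi

theorem lie_df {W : Type} [NormedAddCommGroup W] [NormedSpace ℝ W] {f : X E → W} {x : X E}
    (hx : x ∈ D.Ureg) (h : ContDiffOn ℝ ∞ f D.Ureg) : DifferentiableAt ℝ f x :=
  (h.contDiffAt (D.isOpen_Ureg.mem_nhds hx)).differentiableAt (by simp)

theorem lie_VA0 (i j) {x : X E} (hx : x ∈ D.Ureg) :
    VectorField.lieBracket ℝ (D.VA0 i) (D.VA0 j) x = 0 := by
  have : ∀ i j, fderiv ℝ (D.VA0 j) x (D.VA0 i x) = 0 := fun i j =>
    a0_line (D.lie_df hx (D.contDiffOn_VA0 j)) fun t => by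
      simp only [VA0, map_add, map_smul, D.a0_zc, smul_zero, add_zero]
  rw [VectorField.lieBracket, this, this, sub_zero]

theorem lie_zc (k) (x : X E) : D.zc (D.VB k x) = D.zc (D.bL k) := by
  rw [VB, kap, map_sub, D.a0_zc, sub_zero]

/-- `[a h, κ k] = -iH (λ(z, Φ(z_k, a h)) + ∂_k a h) = -iH perp(z, ∂_k a h)`, by differentiating
`Φ(z, a h) = 0` on the open set `Ureg`; `homog_bound` for `x ↦ aH x h` (and `‖κ k‖ ≤ B`). -/
theorem lie_VA_VB {κ : ℝ} (hκ : 1 ≤ κ) : ∃ θ₀ B : ℝ, 0 < θ₀ ∧ 0 < B ∧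
    ∀ θ, 0 ≤ θ → θ ≤ θ₀ → ∀ x ∈ D.tube κ θ, x ≠ 0 →
      ∀ i k, ∃ t : X H, ‖t‖ ≤ B / ‖x‖ ∧
        VectorField.lieBracket ℝ (D.VA i) (D.VB k) x = liftI 9 D.iH (D.perp (D.zc x) t) := by
  obtain ⟨θ₁, B, h₁, -, hB, H₁⟩ := D.tube_bounds hκ
  have hU : ∀ x ∈ D.tube κ θ₁, x ≠ 0 → x ∈ D.Ureg := fun x hx h0 =>
    ⟨(H₁ θ₁ h₁.le le_rfl x hx h0).1, (H₁ θ₁ h₁.le le_rfl x hx h0).2.2.1⟩
  choose b hb Hb using fun i => homog_bound D.isOpen_Ureg (D.isClosed_tube κ θ₁) hU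
    (fun r hr x hx => D.smul_mem_tube hr hx) (D.contDiffOn_aH (stdOrthonormalBasis ℝ (X H) i))
    fun r hr x => D.aH_smul hr x _
  have s0 : 0 ≤ ∑ i, b i := Finset.sum_nonneg fun i _ => (hb i).le
  refine ⟨θ₁, (∑ i, b i + 1) * B, h₁, by positivity, fun θ hθ a1 x hx h0 i k => ?_⟩
  have hx1 := D.tube_mono a1 hx
  have hxU := hU x hx1 h0
  set a : X E → X H := fun x => D.aH x (stdOrthonormalBasis ℝ (X H) i) with ha
  have da : DifferentiableAt ℝ a x := D.lie_df hxU (D.contDiffOn_aH _)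
  refine ⟨-fderiv ℝ a x (D.VB k x), ?_, ?_⟩
  · have t1 := (H₁ θ hθ a1 x hx h0).2.2.2.2.2.2.2.2.2.1 (D.bL k)
    rw [(D.sl_bL k).2, mul_one] at t1
    have t2 : b i ≤ ∑ i, b i + 1 :=
      (Finset.single_le_sum (fun i _ => (hb i).le) (Finset.mem_univ i)).trans (by linarith)
    rw [norm_neg, mul_div_right_comm]
    refine (ContinuousLinearMap.le_opNorm _ _).trans (mul_le_mul ((Hb i x hx1 h0).trans ?_) t1
      (norm_nonneg _) (by positivity))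
    gcongr
  have h1 : fderiv ℝ (D.VB k) x (D.VA i x) = -liftI 9 D.iH (D.lam (D.zc x) (D.Phi (D.zc (D.bL k)) (a x))) :=
    a0_line (D.lie_df hxU (D.contDiffOn_VB k)) fun t => by
      simp only [VB, VA, kap, dPhi, map_add, map_smul, D.a0_zc, D.a0_yc, smul_zero, add_zero]
      ext j
      simp [lam, Phi, ha, smul_comm t, Finset.sum_add_distrib, Finset.smul_sum]
      abel
  have dH := (liftI 9 D.iH).toContinuousLinearMap.hasFDerivAt.comp x da.hasFDerivAt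
  have h2 : fderiv ℝ (D.VA i) x (D.VB k x) = liftI 9 D.iH (fderiv ℝ a x (D.VB k x)) := congr($(dH.fderiv) _)
  have dZ := ((liftI 9 D.iZ).toContinuousLinearMap.comp (LinearMap.toContinuousLinearMap D.zc)).hasFDerivAt
    (x := x)
  have zm : ∀ z y, D.zc (liftI 9 D.iZ z + liftI 9 D.iH y) = z := fun z y => by simpa [asm] using D.zc_asm z 0 y
  have ym : ∀ z y, D.yc (liftI 9 D.iZ z + liftI 9 D.iH y) = y := fun z y => by simpa [asm] using D.yc_asm z 0 y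
  have d1 := (D.contDiff_PhiX.differentiable (by simp) _).hasFDerivAt.comp x (dZ.add dH)
  have d2 := d1.unique ((hasFDerivAt_const (0 : H) x).congr_of_eventuallyEq (by
    filter_upwards [D.isOpen_Ureg.mem_nhds hxU] with y hy
    change D.Phi (D.zc (liftI 9 D.iZ (D.zc y) + liftI 9 D.iH (a y)))
      (D.yc (liftI 9 D.iZ (D.zc y) + liftI 9 D.iH (a y))) = 0
    rw [zm, ym]
    exact D.Phi_perp hy.1 _))
  have d3 : D.dPhi (liftI 9 D.iZ (D.zc x) + liftI 9 D.iH (a x))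
      (liftI 9 D.iZ (D.zc (D.VB k x)) + liftI 9 D.iH (fderiv ℝ a x (D.VB k x))) = 0 :=
    (D.fderiv_PhiX _ _).symm.trans congr($d2 (D.VB k x))
  rw [dPhi, zm, zm, ym, ym, D.lie_zc] at d3
  rw [VectorField.lieBracket, h1, h2, eq_neg_of_add_eq_zero_right d3]
  ext j
  simp [perp, lam, Phi]
  abel

theorem fderiv_wB_VA (ε : ℝ) (x : X E) (y : X H) : fderiv ℝ (D.wB σ ε) x (liftI 9 D.iH y) = 0 :=
  a0_line ((D.contDiff_wB σ ε).differentiable (by simp) x) fun t => by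
    have : D.lc (liftI 9 D.iH y) = 0 := by simpa [asm] using D.lc_asm 0 0 y
    simp only [wB, map_add, map_smul, D.a0_zc, this, smul_zero, add_zero]

theorem lie_bil : ∃ β : X E →L[ℝ] X E →L[ℝ] Th E, ∀ a, fderiv ℝ (wpot 𝔤 σ.G σ.s) a = β a :=
  ⟨LinearMap.toContinuousLinearMap
    { toFun := fderiv ℝ (wpot 𝔤 σ.G σ.s)
      map_add' := fun a b => by
        ext v i; simp [fderiv_wpot, Finset.sum_add_distrib]; abel
      map_smul' := fun r a => by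
        ext v i; simp [fderiv_wpot, Finset.smul_sum, smul_sub, smul_comm r] }, fun _ => rfl⟩

/-- `wA x = dw_{x - iH y}(iH y)` is bilinear (`fderiv_wpot`, `exists_norm_wpot`), and
`‖yc (VB k x)‖ ≤ B‖y‖/‖x‖` (`tube_bounds`). -/
theorem norm_fderiv_wA {κ : ℝ} (hκ : 1 ≤ κ) : ∃ θ₀ B : ℝ, 0 < θ₀ ∧ 0 < B ∧
    ∀ θ, 0 ≤ θ → θ ≤ θ₀ → ∀ x ∈ D.tube κ θ, x ≠ 0 →
      ∀ k, ‖fderiv ℝ (D.wA σ) x (D.VB k x)‖ ≤ B * ‖D.yc x‖ := by
  obtain ⟨θ₁, B₁, h₁, -, hB₁, H₁⟩ := D.tube_bounds hκ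
  obtain ⟨θ₂, B₂, h₂, hB₂, H₂⟩ := D.slice_light hκ
  obtain ⟨b, hb, Hb⟩ := exists_norm_wpot 𝔤 σ.G σ.unit
  obtain ⟨β, hβ⟩ := lie_bil (𝔤 := 𝔤) σ
  refine ⟨min θ₁ θ₂, 2 * b * (B₁ + B₂), by positivity, by positivity, fun θ hθ hθ' x hx h0 k => ?_⟩
  simp only [le_min_iff] at hθ'
  have hx0 := norm_pos_iff.2 h0
  have t1 := (H₁ θ hθ hθ'.1 x hx h0).2.2.2.2.2.2.2.2.2.1 (D.bL k)
  rw [(D.sl_bL k).2, mul_one] at t1
  have t2 : ‖D.yc (D.VB k x)‖ ≤ B₂ * ‖D.yc x‖ / ‖x‖ := by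
    refine le_trans ?_ ((D.norm_yc_le _).trans (H₂ θ hθ hθ'.2 x hx h0 k))
    rw [map_sub, (D.sl_bL k).1, zero_sub, norm_neg]
  have key : ∀ Q : X E →L[ℝ] X E, (∀ v, ‖Q v‖ ≤ ‖v‖) → ∃ f' : X E →L[ℝ] Th E,
      HasFDerivAt (fun x => β (Q x) (liftI 9 D.iH (D.yc x))) f' x ∧
        ‖f' (D.VB k x)‖ ≤ b * (B₁ + B₂) * ‖D.yc x‖ := fun Q hQ => by
    refine ⟨_, (β.comp Q).hasFDerivAt.clm_apply ((liftI 9 D.iH).toContinuousLinearMap.comp
      (LinearMap.toContinuousLinearMap D.yc)).hasFDerivAt, ?_⟩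
    change ‖β (Q x) (liftI 9 D.iH (D.yc (D.VB k x))) + β (Q (D.VB k x)) (liftI 9 D.iH (D.yc x))‖ ≤ _
    rw [← hβ, ← hβ]
    calc _ ≤ b * ‖x‖ * (B₂ * ‖D.yc x‖ / ‖x‖) + b * B₁ * ‖D.yc x‖ := by
          refine (norm_add_le _ _).trans (add_le_add ((Hb _ _).2.trans ?_) ((Hb _ _).2.trans ?_)) <;>
            rw [LinearIsometry.norm_map] <;> gcongr
          · exact hQ _
          · exact (hQ _).trans t1
      _ = _ := by field_simp; ring
  obtain ⟨f1, d1, n1⟩ := key ((liftI 9 D.iZ).toContinuousLinearMap.comp (LinearMap.toContinuousLinearMap D.zc))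
    fun v => ((liftI 9 D.iZ).norm_map _).trans_le (D.norm_zc_le v)
  obtain ⟨f2, d2, n2⟩ := key ((liftI 9 D.iL).toContinuousLinearMap.comp (LinearMap.toContinuousLinearMap D.lc))
    fun v => ((liftI 9 D.iL).norm_map _).trans_le (D.norm_lc_le v)
  have : HasFDerivAt (D.wA σ) (f1 + f2) x :=
    (d1.add d2).congr_of_eventuallyEq (Eventually.of_forall fun y => by simp [wA, wA0, hβ])
  rw [this.fderiv]
  exact (norm_add_le (f1 _) (f2 _)).trans (by linarith)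

end Levi

end Crest.Agent.R330

end
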