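import Crest.Agent.R330.BF.Anti
import Crest.Agent.R330.BF.Lie
import Crest.Agent.R330.BF.Slice
import Crest.Agent.R330.BF.Gd

/-! # Row 330, block BF/AB: pointwise bounds for `{A, B}` and `A - A₀` (owner helper3; statements frozen) -/

set_option autoImplicit false
set_option linter.unusedSectionVars false

noncomputable section

open MeasureTheory Filter Topology
open scoped InnerProductSpace ContDiff Matrix
open Crest.MathPhysics.MatrixQM (GammaNine)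

namespace Crest.Agent.R330

variable {E Z L H F : Type}
  [NormedAddCommGroup E] [InnerProductSpace ℝ E] [FiniteDimensional ℝ E]
  [NormedAddCommGroup Z] [InnerProductSpace ℝ Z] [FiniteDimensional ℝ Z]
  [NormedAddCommGroup L] [InnerProductSpace ℝ L] [FiniteDimensional ℝ L]
  [NormedAddCommGroup H] [InnerProductSpace ℝ H] [FiniteDimensional ℝ H]
  [NormedAddCommGroup F] [InnerProductSpace ℂ F] [FiniteDimensional ℂ F]
  [MeasurableSpace E] [BorelSpace E] [MeasurableSpace Z] [BorelSpace Z]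
  [MeasurableSpace L] [BorelSpace L] [MeasurableSpace H] [BorelSpace H]
  {P : Type} [Fintype P] {𝔤 : Lie E} (D : Levi 𝔤 Z L H P) (C : Cl (Th E) F) (σ : Spn)

namespace Levi

theorem ab_perp (u : X E → F) (x : X E) (t : X H) :
    ‖fderiv ℝ u x (liftI 9 D.iH (D.perp (D.zc x) t))‖ ≤ ‖t‖ * √(D.gperp u x) :=
  (sq_le_sq₀ (norm_nonneg _) (by positivity)).1 (by
    rw [mul_pow, Real.sq_sqrt (D.gperp_nonneg u x)]; exact D.norm_fderiv_perp u x t)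

theorem ab_sum {ι : Type} [Fintype ι] {f : ι → F} {c : ℝ} (h : ∀ i, ‖f i‖ ≤ c) :
    ‖∑ i, f i‖ ≤ Fintype.card ι * c :=
  (norm_sum_le _ _).trans ((Finset.sum_le_card_nsmul _ _ _ fun j _ => h j).trans
    (by rw [nsmul_eq_mul, Finset.card_univ]))

theorem ab_θ {a : Th E} (ha : ‖a‖ = 1) (w : F) : ‖C.θ a w‖ ≤ ‖w‖ := by
  simpa only [ha, one_mul] using C.norm_θ_le a w

theorem ab_fin {a s t c : ℝ} (ha : 0 ≤ a) (h : a ≤ c * (s + t)) : a ^ 2 ≤ 2 * c ^ 2 * (s ^ 2 + t ^ 2) := by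
  nlinarith [pow_le_pow_left₀ ha h 2, mul_nonneg (sq_nonneg c) (sq_nonneg (s - t))]

/-- `fop_anticomm`; the inner products vanish (`inner_heavy_light`), `fderiv_wB_VA`, `lie_VA_VB` with
`norm_fderiv_perp`, `norm_fderiv_wA`. -/
theorem anticomm_AB {κ : ℝ} (hκ : 1 ≤ κ) : ∃ θ₀ B : ℝ, 0 < θ₀ ∧ 0 < B ∧
    ∀ θ, 0 ≤ θ → θ ≤ θ₀ → ∀ x ∈ D.tube κ θ, x ≠ 0 →
      ∀ (ε : ℝ) (v : X E → F), ContDiff ℝ ∞ v →
        ‖x‖ ^ 2 * ‖D.opA C σ (D.opB C σ ε v) x + D.opB C σ ε (D.opA C σ v) x‖ ^ 2 ≤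
          B * D.Ecal v x := by
  obtain ⟨θ₁, h₁, H₁⟩ := D.tube_Ureg hκ
  obtain ⟨θ₂, B₂, h₂, hB₂, H₂⟩ := D.lie_VA_VB hκ
  obtain ⟨θ₃, B₃, h₃, hB₃, H₃⟩ := D.norm_fderiv_wA σ hκ
  obtain ⟨N, hN⟩ : ∃ N : ℝ, N = Fintype.card (Fin (Module.finrank ℝ (X H))) := ⟨_, rfl⟩
  obtain ⟨N', hN'⟩ : ∃ N : ℝ, N = Fintype.card
    (Fin (Module.finrank ℝ (X Z)) ⊕ Fin (Module.finrank ℝ (X L))) := ⟨_, rfl⟩
  have n0 : 0 ≤ N := by rw [hN]; positivity
  have n0' : 0 ≤ N' := by rw [hN']; positivity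
  refine ⟨min θ₁ (min θ₂ θ₃), 2 * (N * N' * B₂ + N' * B₃) ^ 2 + 1, by positivity, by positivity,
    fun θ hθ hθ' x hx h0 ε v hv => ?_⟩
  simp only [le_min_iff] at hθ'
  obtain ⟨a1, a2, a3⟩ := hθ'
  have hU := H₁ θ hθ a1 x hx h0
  have hx0 := norm_pos_iff.2 h0
  have df : ∀ {W : Type} [NormedAddCommGroup W] [NormedSpace ℝ W] {f : X E → W},
      ContDiffOn ℝ ∞ f D.Ureg → DifferentiableAt ℝ f x := fun h =>
    (h.contDiffAt (D.isOpen_Ureg.mem_nhds hU)).differentiableAt (by simp)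
  have key := fop_anticomm C (D.cH σ) (fun k => cmap σ.G σ.s (D.bL k)) (fun i => df (D.contDiffOn_VA i))
    (fun k => df (D.contDiffOn_VB k)) (df (D.contDiff_wA σ).contDiffOn) (df (D.contDiff_wB σ ε).contDiffOn)
    (hv.of_le (by norm_cast)).contDiffAt
  obtain ⟨α, hα⟩ := D.exists_wA σ hU.1
  have o1 : ∀ i k, ⟪D.cH σ i, cmap σ.G σ.s (D.bL k)⟫_ℝ = 0 := fun i k => by
    obtain ⟨h, e⟩ := D.exists_cH σ i
    obtain ⟨a, b, e'⟩ := D.exists_cB σ k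
    rw [e, e', D.inner_heavy_light]
  have o2 : ∀ i, ⟪D.cH σ i, D.wB σ ε x⟫_ℝ = 0 := fun i => by
    obtain ⟨h, e⟩ := D.exists_cH σ i
    rw [e, wB, D.inner_heavy_light]
  have o3 : ∀ k, ⟪cmap σ.G σ.s (D.bL k), D.wA σ x⟫_ℝ = 0 := fun k => by
    obtain ⟨a, b, e'⟩ := D.exists_cB σ k
    rw [real_inner_comm, hα, e', D.inner_heavy_light]
  have o4 : ⟪D.wA σ x, D.wB σ ε x⟫_ℝ = 0 := by rw [hα, wB, D.inner_heavy_light]
  have o5 : ∀ i, fderiv ℝ (D.wB σ ε) x (D.VA i x) = 0 := fun i => D.fderiv_wB_VA σ ε x _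
  simp only [o1, o2, o3, o4, o5, Complex.ofReal_zero, zero_smul, add_zero, map_zero, smul_zero,
    _root_.zero_apply, Finset.sum_const_zero] at key
  have b1 : ‖D.opA C σ (D.opB C σ ε v) x + D.opB C σ ε (D.opA C σ v) x‖ ≤
      N * (N' * (B₂ / ‖x‖ * √(D.gperp v x))) + N' * (B₃ * ‖D.yc x‖ * ‖v x‖) := by
    rw [opA, opB, key, hN, hN']
    refine (norm_add_le _ _).trans (add_le_add ?_ (ab_sum fun k => ?_))
    · rw [norm_neg]
      refine ab_sum fun i => ab_sum fun k => ?_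
      obtain ⟨t, ht, e⟩ := H₂ θ hθ a2 x hx h0 i k
      refine (ab_θ C (D.norm_cH σ i) _).trans ((ab_θ C (D.norm_cB σ k) _).trans ?_)
      rw [e]
      exact (D.ab_perp v x t).trans (by gcongr)
    · rw [norm_smul, norm_neg, Complex.norm_I, one_mul]
      exact (ab_θ C (D.norm_cB σ k) _).trans ((C.norm_θ_le _ _).trans (by
        gcongr; exact H₃ θ hθ a3 x hx h0 k))
  have b2 := ab_fin (c := N * N' * B₂ + N' * B₃) (s := √(D.gperp v x)) (t := ‖x‖ * ‖D.yc x‖ * ‖v x‖)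
    (by positivity) ((mul_le_mul_of_nonneg_left b1 hx0.le).trans (by
      have e : ‖x‖ * (N * (N' * (B₂ / ‖x‖ * √(D.gperp v x))) + N' * (B₃ * ‖D.yc x‖ * ‖v x‖)) =
        N * N' * B₂ * √(D.gperp v x) + N' * B₃ * (‖x‖ * ‖D.yc x‖ * ‖v x‖) := by field_simp
      have : 0 ≤ N' * B₃ * √(D.gperp v x) + N * N' * B₂ * (‖x‖ * ‖D.yc x‖ * ‖v x‖) := by positivity
      linarith))
  rw [Real.sq_sqrt (D.gperp_nonneg v x), mul_pow] at b2
  have p1 := D.Ecal_nonneg v x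
  have p2 : 0 ≤ 2 * (N * N' * B₂ + N' * B₃) ^ 2 * (‖x‖ * ‖v x‖ ^ 2) := by positivity
  unfold Ecal at *
  linarith

/-- `(A - A₀) v = -i Σ θ(cH i) ∂_{iH perp (cor e_i)} v + θ(dw_l y) v`; `norm_cor`,
`norm_fderiv_perp`, `exists_norm_wpot`. -/
theorem A_sub_A0 {κ : ℝ} (hκ : 1 ≤ κ) : ∃ θ₀ B : ℝ, 0 < θ₀ ∧ 0 < B ∧
    ∀ θ, 0 ≤ θ → θ ≤ θ₀ → ∀ x ∈ D.tube κ θ, x ≠ 0 →
      ∀ v : X E → F, ‖D.opA C σ v x - D.opA0 C σ v x‖ ^ 2 ≤ B * θ ^ 2 * D.Ecal v x := by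
  obtain ⟨θ₂, B₂, h₂, hB₂, H₂⟩ := D.norm_cor hκ
  obtain ⟨b, hb, Hb⟩ := exists_norm_wpot 𝔤 σ.G σ.unit
  obtain ⟨N, hN⟩ : ∃ N : ℝ, N = Fintype.card (Fin (Module.finrank ℝ (X H))) := ⟨_, rfl⟩
  have n0 : 0 ≤ N := by rw [hN]; positivity
  refine ⟨θ₂, 2 * (N * B₂ + b) ^ 2, h₂, by positivity, fun θ hθ a2 x hx h0 v => ?_⟩
  have e : D.opA C σ v x - D.opA0 C σ v x = (∑ i, (-Complex.I) • C.θ (D.cH σ i) (fderiv ℝ v x
      (liftI 9 D.iH (D.perp (D.zc x) (D.cor x (stdOrthonormalBasis ℝ (X H) i)))))) +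
      C.θ (fderiv ℝ (wpot 𝔤 σ.G σ.s) (liftI 9 D.iL (D.lc x)) (liftI 9 D.iH (D.yc x))) (v x) := by
    simp only [opA, opA0, fop, VA, VA0, aH, wA, D.perp_add, map_add, smul_add, Finset.sum_add_distrib,
      _root_.add_apply]
    abel
  have b1 : ‖D.opA C σ v x - D.opA0 C σ v x‖ ≤
      N * (B₂ * θ * √(D.gperp v x)) + b * (θ * ‖x‖) * ‖D.yc x‖ * ‖v x‖ := by
    rw [e, hN]
    refine (norm_add_le _ _).trans (add_le_add (ab_sum fun i => ?_) ((C.norm_θ_le _ _).trans ?_))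
    · rw [norm_smul, norm_neg, Complex.norm_I, one_mul]
      refine (ab_θ C (D.norm_cH σ i) _).trans ((D.ab_perp v x _).trans ?_)
      gcongr
      simpa using H₂ θ hθ a2 x hx h0 (stdOrthonormalBasis ℝ (X H) i)
    · gcongr
      refine (Hb _ _).2.trans ?_
      rw [LinearIsometry.norm_map, LinearIsometry.norm_map]
      gcongr
      linarith [hx.2, norm_nonneg (D.yc x)]
  have b2 := ab_fin (c := (N * B₂ + b) * θ) (s := √(D.gperp v x)) (t := ‖x‖ * ‖D.yc x‖ * ‖v x‖)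
    (norm_nonneg _) (b1.trans (by
      have : 0 ≤ b * θ * √(D.gperp v x) + N * B₂ * θ * (‖x‖ * ‖D.yc x‖ * ‖v x‖) := by positivity
      linarith))
  rw [Real.sq_sqrt (D.gperp_nonneg v x)] at b2
  have p2 : 0 ≤ 2 * ((N * B₂ + b) * θ) ^ 2 * (‖x‖ * ‖v x‖ ^ 2) := by positivity
  unfold Ecal
  linarith

end Levi

end Crest.Agent.R330

end
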