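import Crest.Agent.R330.IG

/-! # Row 330, block BF/Abs: first order operators with variable directions (owner helper3; statements frozen) -/

set_option autoImplicit false
set_option linter.unusedSectionVars false

noncomputable section

open MeasureTheory Filter Topology
open scoped InnerProductSpace ContDiff Matrix
open Crest.MathPhysics.MatrixQM (GammaNine)

namespace Crest.Agent.R330

variable {Y Θ F : Type} [NormedAddCommGroup Y] [InnerProductSpace ℝ Y] [FiniteDimensional ℝ Y]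
  [MeasurableSpace Y] [BorelSpace Y]
  [NormedAddCommGroup Θ] [InnerProductSpace ℝ Θ] [FiniteDimensional ℝ Θ]
  [NormedAddCommGroup F] [InnerProductSpace ℂ F] [FiniteDimensional ℂ F]
  {ι ι' : Type} [Fintype ι] [Fintype ι']

/-- Core functions supported in `U`. -/
def CU (U : Set Y) (ψ : Y → F) : Prop := Core ψ ∧ tsupport ψ ⊆ U

/-- `-i Σ θ(a i) ∂_{V i} ψ + θ(w) ψ`. -/
def fop (C : Cl Θ F) (a : ι → Θ) (V : ι → Y → Y) (w : Y → Θ) (ψ : Y → F) (x : Y) : F :=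
  (∑ i, (-Complex.I) • C.θ (a i) (fderiv ℝ ψ x (V i x))) + C.θ (w x) (ψ x)

/-- `div (p V) = p b` on `U`. -/
def DivW (U : Set Y) (p : Y → ℝ) (V : Y → Y) (b : Y → ℝ) : Prop :=
  ∀ x ∈ U, fderiv ℝ p x (V x) + p x * LinearMap.trace ℝ Y (fderiv ℝ V x).toLinearMap = p x * b x

/-- Continuous on `K` and zero off `K` (integrable when `K` is compact). -/
def Gd {W : Type} [NormedAddCommGroup W] (K : Set Y) (f : Y → W) : Prop :=
  ContinuousOn f K ∧ ∀ x, x ∉ K → f x = 0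

section Gd

variable {W : Type} [NormedAddCommGroup W] {K : Set Y}

theorem Gd.integrable {f : Y → W} (h : Gd K f) (hK : IsCompact K) : Integrable f :=
  (integrableOn_iff_integrable_of_support_subset fun x hx => by
    by_contra h'; exact hx (h.2 x h')).1 (h.1.integrableOn_compact hK)

theorem Gd.add {f g : Y → W} (hf : Gd K f) (hg : Gd K g) : Gd K fun x => f x + g x :=
  ⟨hf.1.add hg.1, fun x hx => by simp [hf.2 x hx, hg.2 x hx]⟩

theorem Gd.sub {f g : Y → W} (hf : Gd K f) (hg : Gd K g) : Gd K fun x => f x - g x :=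
  ⟨hf.1.sub hg.1, fun x hx => by simp [hf.2 x hx, hg.2 x hx]⟩

theorem Gd.neg {f : Y → W} (hf : Gd K f) : Gd K fun x => -f x :=
  ⟨hf.1.neg, fun x hx => by simp [hf.2 x hx]⟩

theorem Gd.sum {f : ι → Y → W} (hf : ∀ i, Gd K (f i)) : Gd K fun x => ∑ i, f i x :=
  ⟨continuousOn_finsetSum _ fun i _ => (hf i).1, fun x hx => by simp [fun i => (hf i).2 x hx]⟩

theorem Gd.mul_left {g f : Y → ℝ} (hg : ContinuousOn g K) (hf : Gd K f) : Gd K fun x => g x * f x :=
  ⟨hg.mul hf.1, fun x hx => by simp [hf.2 x hx]⟩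

theorem Gd.const_mul (c : ℝ) {f : Y → ℝ} (hf : Gd K f) : Gd K fun x => c * f x :=
  hf.mul_left continuousOn_const

theorem Gd.smul {R : Type} [NormedField R] [NormedSpace R W] {g : Y → R} {f : Y → W}
    (hg : ContinuousOn g K) (hf : Gd K f) : Gd K fun x => g x • f x :=
  ⟨hg.smul hf.1, fun x hx => by simp [hf.2 x hx]⟩

theorem Gd.norm_sq {f : Y → W} (hf : Gd K f) : Gd K fun x => ‖f x‖ ^ 2 :=
  ⟨hf.1.norm.pow 2, fun x hx => by simp [hf.2 x hx]⟩

theorem Gd.clm {f : Y → F} {T : Y → F →L[ℂ] F} (hT : ContinuousOn T K) (hf : Gd K f) :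
    Gd K fun x => T x (f x) :=
  ⟨hT.clm_apply hf.1, fun x hx => by simp [hf.2 x hx]⟩

theorem Gd.re_inner {f g : Y → F} (hf : Gd K f) (hg : Gd K g) : Gd K fun x => (⟪f x, g x⟫_ℂ).re :=
  ⟨Complex.continuous_re.comp_continuousOn (hf.1.inner (𝕜 := ℂ) hg.1), fun x hx => by simp [hf.2 x hx]⟩

theorem Gd.of_core {ψ : Y → F} (h : Core ψ) (hs : tsupport ψ ⊆ K) : Gd K ψ :=
  ⟨h.1.continuous.continuousOn, fun _ hx => image_eq_zero_of_notMem_tsupport fun h' => hx (hs h')⟩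

theorem Gd.fderiv {ψ : Y → F} (h : Core ψ) (hs : tsupport ψ ⊆ K) {V : Y → Y} (hV : ContinuousOn V K) :
    Gd K fun x => fderiv ℝ ψ x (V x) :=
  ⟨(h.1.continuous_fderiv (by simp)).continuousOn.clm_apply hV, fun x hx => by
    have : _root_.fderiv ℝ ψ x = 0 :=
      image_eq_zero_of_notMem_tsupport fun h' => hx (hs (tsupport_fderiv_subset ℝ h'))
    simp [this]⟩

theorem Gd.gsq {ψ : Y → F} (h : Core ψ) (hs : tsupport ψ ⊆ K) : Gd K (gsq ψ) :=
  Gd.sum fun _ => (Gd.fderiv h hs continuousOn_const).norm_sq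

end Gd

theorem abs_zero {ψ : Y → F} {x : Y} (hx : x ∉ tsupport ψ) : ψ x = 0 ∧ fderiv ℝ ψ x = 0 :=
  ⟨image_eq_zero_of_notMem_tsupport hx,
    image_eq_zero_of_notMem_tsupport fun h' => hx (tsupport_fderiv_subset ℝ h')⟩

theorem abs_supp {W : Type} [Zero W] {ψ : Y → F} {g : Y → W} (h : ∀ x, x ∉ tsupport ψ → g x = 0) :
    tsupport g ⊆ tsupport ψ :=
  closure_minimal (fun x hx => by_contra fun h' => hx (h x h')) (isClosed_tsupport ψ)

theorem CU.of_zero {U : Set Y} (hU : IsOpen U) {ψ g : Y → F} (hψ : CU U ψ) (hg : ContDiffOn ℝ ∞ g U)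
    (h : ∀ x, x ∉ tsupport ψ → g x = 0) : CU U g :=
  ⟨⟨contDiff_of_support (isClosed_tsupport ψ) hU hψ.2 h hg,
    hψ.1.2.of_isClosed_subset (isClosed_tsupport _) (abs_supp h)⟩, (abs_supp h).trans hψ.2⟩

theorem tsupport_fop (C : Cl Θ F) (a : ι → Θ) (V : ι → Y → Y) (w : Y → Θ) (ψ : Y → F) :
    tsupport (fop C a V w ψ) ⊆ tsupport ψ :=
  abs_supp fun x hx => by simp [fop, abs_zero hx]

theorem CU.fderiv {V : Y → Y} {U : Set Y} (hU : IsOpen U) (hV : ContDiffOn ℝ ∞ V U) {ψ : Y → F}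
    (hψ : CU U ψ) : CU U fun x => fderiv ℝ ψ x (V x) :=
  hψ.of_zero hU ((hψ.1.1.fderiv_right (m := ∞) (by simp)).contDiffOn.clm_apply hV) fun x hx => by
    simp [abs_zero hx]

/-- `contDiff_of_support`. -/
theorem CU.fop (C : Cl Θ F) (a : ι → Θ) {V : ι → Y → Y} {w : Y → Θ} {U : Set Y} (hU : IsOpen U)
    (hV : ∀ i, ContDiffOn ℝ ∞ (V i) U) (hw : ContDiffOn ℝ ∞ w U) {ψ : Y → F} (hψ : CU U ψ) :
    CU U (fop C a V w ψ) := by
  let T : Θ →L[ℝ] F →L[ℝ] F :=
    (ContinuousLinearMap.restrictScalarsL ℂ F F ℝ ℝ).comp (LinearMap.toContinuousLinearMap C.θ)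
  refine hψ.of_zero hU ?_ fun x hx => by simp [R330.fop, abs_zero hx]
  exact (ContDiffOn.sum fun i _ => ((T (a i)).contDiff.comp (hψ.fderiv hU (hV i)).1.1).contDiffOn.const_smul
    (-Complex.I)).add ((T.contDiff.comp_contDiffOn hw).clm_apply hψ.1.1.contDiffOn)

theorem fop_add (C : Cl Θ F) (a : ι → Θ) (V : ι → Y → Y) (w : Y → Θ) {φ ψ : Y → F} {x : Y}
    (hφ : DifferentiableAt ℝ φ x) (hψ : DifferentiableAt ℝ ψ x) :
    fop C a V w (fun y => φ y + ψ y) x = fop C a V w φ x + fop C a V w ψ x := by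
  simp only [fop, fderiv_fun_add hφ hψ, _root_.add_apply, map_add, smul_add, Finset.sum_add_distrib]
  abel

/-- An operator commuting (`s = 1`) or anticommuting (`s = -1`) with the Clifford coefficients. -/
theorem fop_clm (C : Cl Θ F) (a : ι → Θ) (V : ι → Y → Y) (w : Y → Θ) {ψ : Y → F} {x : Y}
    (hψ : DifferentiableAt ℝ ψ x) (T : F →L[ℂ] F) (s : ℂ)
    (ha : ∀ i, T * C.θ (a i) = s • (C.θ (a i) * T)) (hw : T * C.θ (w x) = s • (C.θ (w x) * T)) :
    T (fop C a V w ψ x) = s • fop C a V w (fun y => T (ψ y)) x := by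
  have h1 : ∀ v, fderiv ℝ (fun y => T (ψ y)) x v = T (fderiv ℝ ψ x v) := fun v =>
    congr($(((T.restrictScalars ℝ).hasFDerivAt.comp x hψ.hasFDerivAt).fderiv) v)
  have h2 : ∀ i b, T (C.θ (a i) b) = s • C.θ (a i) (T b) := fun i b => congr($(ha i) b)
  have h3 : ∀ b, T (C.θ (w x) b) = s • C.θ (w x) (T b) := fun b => congr($hw b)
  simp only [fop, map_add, map_sum, map_smul, h1, h2, h3, smul_add, Finset.smul_sum, smul_comm s]

/-- Derivatives of functions homogeneous of degree zero (compactness of `K ∩ sphere`;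
`fderiv f (r • x) = r⁻¹ • fderiv f x`). -/
theorem homog_bound {W : Type} [NormedAddCommGroup W] [NormedSpace ℝ W] {U K : Set Y}
    (hU : IsOpen U) (hK : IsClosed K) (hKU : ∀ x ∈ K, x ≠ 0 → x ∈ U)
    (hKc : ∀ r : ℝ, 0 < r → ∀ x ∈ K, r • x ∈ K) {f : Y → W} (hf : ContDiffOn ℝ ∞ f U)
    (hh : ∀ r : ℝ, 0 < r → ∀ x, f (r • x) = f x) :
    ∃ b : ℝ, 0 < b ∧ ∀ x ∈ K, x ≠ 0 → ‖fderiv ℝ f x‖ ≤ b / ‖x‖ := by
  obtain ⟨b, hb⟩ := ((isCompact_sphere (0 : Y) 1).inter_left hK).exists_bound_of_continuousOn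
    ((hf.continuousOn_fderiv_of_isOpen hU (by simp)).mono fun x hx => hKU x hx.1 (by
      rintro rfl; simpa using hx.2))
  refine ⟨max b 1, by positivity, fun x hx h0 => ?_⟩
  have hx0 := norm_pos_iff.2 h0
  have e : f = fun y => f (‖x‖⁻¹ • y) := funext fun y => (hh _ (inv_pos.2 hx0) y).symm
  rw [e, fderiv_comp_smul, norm_smul, norm_inv, norm_norm, div_eq_inv_mul]
  gcongr
  exact (hb _ ⟨hKc _ (inv_pos.2 hx0) x hx, by simp [norm_smul, hx0.ne']⟩).trans (le_max_left _ _)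

end Crest.Agent.R330

end
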