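import Crest.Agent.R330.BF.Abs

/-! # Row 330, block BF/Anti: the anticommutator (owner helper3; statements frozen) -/

set_option autoImplicit false
set_option linter.unusedSectionVars false

noncomputable section

open MeasureTheory Filter Topology
open scoped InnerProductSpace ContDiff Matrix
open Crest.MathPhysics.MatrixQM (GammaNine)

namespace Crest.Agent.R330

variable {Y Θ F : Type} [NormedAddCommGroup Y] [InnerProductSpace ℝ Y] [FiniteDimensional ℝ Y]
  [MeasurableSpace Y] [BorelSpace Y]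
  [NormedAddCommGroup Θ] [InnerProductSpace ℝ Θ] [FiniteDimensional ℝ Θ]
  [NormedAddCommGroup F] [InnerProductSpace ℂ F] [FiniteDimensional ℂ F]
  {ι ι' : Type} [Fintype ι] [Fintype ι']

theorem anti_fderiv (C : Cl Θ F) (b : ι' → Θ) {W : ι' → Y → Y} {β : Y → Θ} {ψ : Y → F} {x : Y}
    (hW : ∀ j, DifferentiableAt ℝ (W j) x) (hβ : DifferentiableAt ℝ β x) (hψ : ContDiffAt ℝ 2 ψ x)
    (v : Y) : fderiv ℝ (fop C b W β ψ) x v =
      ∑ j, (-Complex.I) • C.θ (b j) (fderiv ℝ (fun y => fderiv ℝ ψ y (W j y)) x v) +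
        (C.θ (β x) (fderiv ℝ ψ x v) + C.θ (fderiv ℝ β x v) (ψ x)) := by
  have h1 : DifferentiableAt ℝ ψ x := hψ.differentiableAt (by norm_num)
  have h2 : DifferentiableAt ℝ (fderiv ℝ ψ) x :=
    (hψ.fderiv_right (m := 1) (by norm_num)).differentiableAt (by norm_num)
  let T : Θ →L[ℝ] F →L[ℝ] F :=
    (ContinuousLinearMap.restrictScalarsL ℂ F F ℝ ℝ).comp (LinearMap.toContinuousLinearMap C.θ)
  have h3 := (T.hasFDerivAt.comp x hβ.hasFDerivAt).clm_apply h1.hasFDerivAt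
  have h4 := HasFDerivAt.fun_sum (u := Finset.univ) fun j _ =>
    ((T (b j)).hasFDerivAt.comp x (h2.clm_apply (hW j)).hasFDerivAt).const_smul (-Complex.I)
  have h5 : HasFDerivAt (fop C b W β ψ) _ x := h4.add h3
  rw [h5.fderiv]
  simp [T]

/-- Anticommutator of two first order operators (`VectorField.fderiv_apply_lieBracket`, `C.anti`). -/
theorem fop_anticomm (C : Cl Θ F) (a : ι → Θ) (b : ι' → Θ) {V : ι → Y → Y} {W : ι' → Y → Y}
    {α β : Y → Θ} {ψ : Y → F} {x : Y} (hV : ∀ i, DifferentiableAt ℝ (V i) x)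
    (hW : ∀ j, DifferentiableAt ℝ (W j) x) (hα : DifferentiableAt ℝ α x)
    (hβ : DifferentiableAt ℝ β x) (hψ : ContDiffAt ℝ 2 ψ x) :
    fop C a V α (fop C b W β ψ) x + fop C b W β (fop C a V α ψ) x =
      -(∑ i, ∑ j, (C.θ (a i) (C.θ (b j) (fderiv ℝ ψ x (VectorField.lieBracket ℝ (V i) (W j) x))) +
          ((⟪a i, b j⟫_ℝ : ℝ) : ℂ) • fderiv ℝ (fun y => fderiv ℝ ψ y (V i y)) x (W j x))) +
        ∑ i, (-Complex.I) • (C.θ (a i) (C.θ (fderiv ℝ β x (V i x)) (ψ x)) +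
          ((⟪a i, β x⟫_ℝ : ℝ) : ℂ) • fderiv ℝ ψ x (V i x)) +
        ∑ j, (-Complex.I) • (C.θ (b j) (C.θ (fderiv ℝ α x (W j x)) (ψ x)) +
          ((⟪b j, α x⟫_ℝ : ℝ) : ℂ) • fderiv ℝ ψ x (W j x)) +
        ((⟪α x, β x⟫_ℝ : ℝ) : ℂ) • ψ x := by
  have an : ∀ u v y, C.θ v (C.θ u y) = ((⟪u, v⟫_ℝ : ℝ) : ℂ) • y - C.θ u (C.θ v y) := fun u v y => by
    have := congrArg (fun T : F →L[ℂ] F => T y) (C.anti u v)
    exact eq_sub_of_add_eq' this
  have lb : ∀ i j, fderiv ℝ (fun y => fderiv ℝ ψ y (W j y)) x (V i x) =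
      fderiv ℝ ψ x (VectorField.lieBracket ℝ (V i) (W j) x) +
        fderiv ℝ (fun y => fderiv ℝ ψ y (V i y)) x (W j x) := fun i j => by
    rw [VectorField.fderiv_apply_lieBracket hψ (by simp) (hW j) (hV i), sub_add_cancel]
  have II : -Complex.I * -Complex.I = -1 := by simp
  rw [fop, fop]
  simp only [anti_fderiv C b hW hβ hψ, anti_fderiv C a hV hα hψ, fop, lb, map_add, map_sum, map_smul,
    smul_add, Finset.smul_sum, smul_smul, II, neg_one_smul]
  simp only [fun j i => an (a i) (b j), fun i => an (a i) (β x), fun j => an (b j) (α x), an (α x) (β x),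
    smul_sub, neg_sub, Finset.sum_add_distrib, Finset.sum_sub_distrib, Finset.sum_neg_distrib, smul_smul]
  rw [Finset.sum_comm (s := Finset.univ (α := ι')), Finset.sum_comm (s := Finset.univ (α := ι'))]
  abel

end Crest.Agent.R330

end
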