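import Crest.Agent.R330.BF.Ibp
import Crest.Agent.R330.BF.Anti

/-! # Row 330, block BF/Cross: energy identity and cross term (owner helper3; statements frozen) -/

set_option autoImplicit false
set_option linter.unusedSectionVars false

noncomputable section

open MeasureTheory Filter Topology
open scoped InnerProductSpace ContDiff Matrix
open Crest.MathPhysics.MatrixQM (GammaNine)

namespace Crest.Agent.R330

variable {Y Θ F : Type} [NormedAddCommGroup Y] [InnerProductSpace ℝ Y] [FiniteDimensional ℝ Y]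
  [MeasurableSpace Y] [BorelSpace Y]
  [NormedAddCommGroup Θ] [InnerProductSpace ℝ Θ] [FiniteDimensional ℝ Θ]
  [NormedAddCommGroup F] [InnerProductSpace ℂ F] [FiniteDimensional ℂ F]
  {ι ι' : Type} [Fintype ι] [Fintype ι']

/-- Energy identity for commuting divergence free fields: `fop_adj` with `ψ, Aψ`; `fop_anticomm` with
`A = B`; `∫ p re⟪ψ, ∂_V∂_V ψ⟫ = -∫ p ‖∂_V ψ‖²` by `ibp_field` (`h = re⟪ψ, ∂_V ψ⟫`, `CU.fderiv`). -/
theorem fop_energy [DecidableEq ι] (C : Cl Θ F) {a : ι → Θ}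
    (ha : ∀ i j, ⟪a i, a j⟫_ℝ = if i = j then 1 else 0) {V : ι → Y → Y} {w : Y → Θ} {U : Set Y}
    (hU : IsOpen U) {p : Y → ℝ} (hp : ContDiffOn ℝ ∞ p U) (hV : ∀ i, ContDiffOn ℝ ∞ (V i) U)
    (hw : ContDiffOn ℝ ∞ w U) (hd : ∀ i, DivW U p (V i) fun _ => 0)
    (hbr : ∀ i j, ∀ x ∈ U, VectorField.lieBracket ℝ (V i) (V j) x = 0) {ψ : Y → F} (hψ : CU U ψ) :
    ∫ x, p x * ‖fop C a V w ψ x‖ ^ 2 =
      ∫ x, p x * (1 / 2 * ∑ i, ‖fderiv ℝ ψ x (V i x)‖ ^ 2 + 1 / 2 * ‖w x‖ ^ 2 * ‖ψ x‖ ^ 2 +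
        (⟪ψ x, ∑ i, (-Complex.I) • (C.θ (a i) (C.θ (fderiv ℝ w x (V i x)) (ψ x)) +
          ((⟪a i, w x⟫_ℝ : ℝ) : ℂ) • fderiv ℝ ψ x (V i x))⟫_ℂ).re) := by
  have hA := hψ.fop C a hU hV hw
  have r3 : ∀ a : F, (⟪a, a⟫_ℂ).re = ‖a‖ ^ 2 := inner_self_eq_norm_sq (𝕜 := ℂ)
  have k1 := fop_adj C a hU hp hV hw hd (fun _ => continuousOn_const) hψ hA
  have key := fun i => ibp_inner hU hp (hV i) (hd i) continuousOn_const hψ (hψ.fderiv hU (hV i))
  have k := integral_finsetSum Finset.univ fun i _ => (key i).1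
  simp only [fun i => (key i).2, Finset.sum_const_zero] at k
  have i3 := (integrable_finsetSum Finset.univ fun i _ => (key i).1).const_mul (1 / 2)
  have i1 := (((hψ.gd subset_rfl).re_inner ((hA.fop C a hU hV hw).gd
    ((tsupport_fop ..).trans (tsupport_fop ..)))).mul_left (hp.continuousOn.mono hψ.2)).integrable hψ.1.2
  simp only [Complex.ofReal_zero, zero_smul, smul_zero, Finset.sum_const_zero, inner_zero_left,
    Complex.zero_re, mul_zero, integral_zero, add_zero, r3] at k1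
  have k2 := integral_add i1 i3
  rw [integral_const_mul, k, mul_zero, add_zero] at k2
  rw [← k1, ← k2]
  refine integral_congr_ae (Eventually.of_forall fun x => ?_)
  by_cases hx : x ∈ tsupport ψ
  swap
  · simp [abs_zero hx]
  have df : ∀ {W : Type} [NormedAddCommGroup W] [NormedSpace ℝ W] {f : Y → W},
      ContDiffOn ℝ ∞ f U → DifferentiableAt ℝ f x := fun h =>
    (h.contDiffAt (hU.mem_nhds (hψ.2 hx))).differentiableAt (by simp)
  have e := congrArg (fun t => (⟪ψ x, t⟫_ℂ).re) (fop_anticomm C a a (fun i => df (hV i)) (fun i => df (hV i))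
    (df hw) (df hw) (hψ.1.1.of_le (by norm_cast)).contDiffAt)
  simp only [hbr _ _ x (hψ.2 hx), ha, map_zero, zero_add, apply_ite ((↑) : ℝ → ℂ), ite_smul,
    Complex.ofReal_one, Complex.ofReal_zero, one_smul, zero_smul, Finset.sum_ite_eq, Finset.mem_univ, if_true,
    inner_add_right, Complex.add_re, inner_neg_right, Complex.neg_re, inner_sum _ (fun i =>
      fderiv ℝ (fun y => fderiv ℝ ψ y (V i y)) x (V i x)), Complex.re_sum, real_inner_self_eq_norm_sq,
    inner_smul_right (ψ x) (ψ x), Complex.re_ofReal_mul, r3] at e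
  simp only [← Finset.mul_sum, zero_mul, add_zero, r3, Finset.sum_add_distrib]
  linear_combination p x / 2 * e

/-- `A = fop a V α` is `Γ`-odd and symmetric, `B = fop b W β` is `Γ`-even.  Pointwise (`fop_add`,
`fop_clm`; even and odd vectors are orthogonal)
`‖Au + Bu‖² = ‖Au⁻ + Bu⁺‖² + ‖Au⁺ + Bu⁻‖² ≥ ‖Au⁻‖² + 2re⟪Au⁻, Bu⁺⟫ + 2re⟪Au⁺, Bu⁻⟫`; then `fop_adj`
for `B` (`φ = Au⁻`, `ψ = u⁺`) and for `A` (`φ = u⁺`, `ψ = Bu⁻`). -/
theorem fop_cross (C : Cl Θ F) (a : ι → Θ) (b : ι' → Θ) {V : ι → Y → Y} {W : ι' → Y → Y}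
    {α β : Y → Θ} {U : Set Y} (hU : IsOpen U) {p : Y → ℝ} (hp : ContDiffOn ℝ ∞ p U)
    (h0 : ∀ x ∈ U, 0 ≤ p x) (hV : ∀ i, ContDiffOn ℝ ∞ (V i) U) (hW : ∀ j, ContDiffOn ℝ ∞ (W j) U)
    (hα : ContDiffOn ℝ ∞ α U) (hβ : ContDiffOn ℝ ∞ β U) (hdV : ∀ i, DivW U p (V i) fun _ => 0)
    {d : ι' → Y → ℝ} (hdW : ∀ j, DivW U p (W j) (d j)) (hdc : ∀ j, ContinuousOn (d j) U)
    {Γ : F →L[ℂ] F} (hΓ : IsSelfAdjoint Γ) (ha : ∀ i, Γ * C.θ (a i) = -(C.θ (a i) * Γ))
    (hαΓ : ∀ x ∈ U, Γ * C.θ (α x) = -(C.θ (α x) * Γ)) (hb : ∀ j, Γ * C.θ (b j) = C.θ (b j) * Γ)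
    (hβΓ : ∀ x ∈ U, Γ * C.θ (β x) = C.θ (β x) * Γ) {u up um : Y → F} (hup : CU U up)
    (hum : CU U um) (hp' : ∀ x, Γ (up x) = up x) (hm' : ∀ x, Γ (um x) = -um x)
    (hu : ∀ x, u x = up x + um x) :
    (∫ x, p x * ‖fop C a V α um x‖ ^ 2) +
        2 * (∫ x, p x * (⟪up x, fop C a V α (fop C b W β um) x + fop C b W β (fop C a V α um) x⟫_ℂ).re) +
        2 * ∫ x, p x * (⟪∑ j, (-Complex.I) • ((d j x : ℝ) : ℂ) • C.θ (b j) (fop C a V α um x), up x⟫_ℂ).re ≤
      ∫ x, p x * ‖fop C a V α u x + fop C b W β u x‖ ^ 2 := by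
  obtain rfl : u = fun x => up x + um x := funext hu
  have hK := hup.1.2.union hum.1.2
  have hKU := Set.union_subset hup.2 hum.2
  have cp := hp.continuousOn.mono hKU
  have A1 := hup.fop C a hU hV hα
  have A2 := hum.fop C a hU hV hα
  have B1 := hup.fop C b hU hW hβ
  have B2 := hum.fop C b hU hW hβ
  have sp : tsupport up ⊆ tsupport up ∪ tsupport um := Set.subset_union_left
  have sm : tsupport um ⊆ tsupport up ∪ tsupport um := Set.subset_union_right
  have gA1 := A1.gd ((tsupport_fop ..).trans sp)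
  have gA2 := A2.gd ((tsupport_fop ..).trans sm)
  have gB1 := B1.gd ((tsupport_fop ..).trans sp)
  have gB2 := B2.gd ((tsupport_fop ..).trans sm)
  have k1 := fop_adj C b hU hp hW hβ hdW hdc A2 hup
  have k2 := fop_adj C a hU hp hV hα hdV (fun _ => continuousOn_const) hup B2
  simp only [Complex.ofReal_zero, zero_smul, smul_zero, Finset.sum_const_zero, inner_zero_left,
    Complex.zero_re, mul_zero, integral_zero, add_zero] at k2
  have r2 : ∀ a b : F, (⟪a, b⟫_ℂ).re = (⟪b, a⟫_ℂ).re := inner_re_symm (𝕜 := ℂ)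
  have k3 := integral_add ((((hup.gd sp).re_inner ((B2.fop C a hU hV hα).gd
    (((tsupport_fop ..).trans (tsupport_fop ..)).trans sm))).mul_left cp).integrable hK)
    (((((A2.fop C b hU hW hβ).gd (((tsupport_fop ..).trans (tsupport_fop ..)).trans sm)).re_inner
      (hup.gd sp)).mul_left cp).integrable hK)
  have i1 := (gA2.norm_sq.mul_left cp).integrable hK
  have i2 := (((gA2.re_inner gB1).mul_left cp).integrable hK).const_mul 2
  have i3 := (((gA1.re_inner gB2).mul_left cp).integrable hK).const_mul 2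
  have d1 := hup.1.1.differentiable (by simp)
  have d2 := hum.1.1.differentiable (by simp)
  have k4 := integral_mono ((i1.add i2).add i3)
    ((((gA1.add gA2).add (gB1.add gB2)).norm_sq.mul_left cp).integrable hK) fun x => by
      by_cases hx : x ∈ tsupport up ∪ tsupport um
      swap
      · simp [gA1.2 x hx, gA2.2 x hx, gB1.2 x hx, gB2.2 x hx]
      have hxU := hKU hx
      have ng : ∀ {ι : Type} [Fintype ι] (a : ι → Θ) (V : ι → Y → Y) (w : Y → Θ),
          fop C a V w (fun y => -um y) x = -fop C a V w um x := fun a V w => by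
        simp [fop, fderiv_fun_neg]; abel
      have e1 := fop_clm C a V α (d1 x) Γ (-1) (by simpa using ha) (by simpa using hαΓ x hxU)
      have e2 := fop_clm C a V α (d2 x) Γ (-1) (by simpa using ha) (by simpa using hαΓ x hxU)
      have e3 := fop_clm C b W β (d1 x) Γ 1 (by simpa using hb) (by simpa using hβΓ x hxU)
      have e4 := fop_clm C b W β (d2 x) Γ 1 (by simpa using hb) (by simpa using hβΓ x hxU)
      simp only [hp', hm', ng, neg_smul, one_smul, neg_neg] at e1 e2 e3 e4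
      have o := hΓ.isSymmetric (fop C a V α um x + fop C b W β up x) (fop C a V α up x + fop C b W β um x)
      simp only [ContinuousLinearMap.coe_coe, map_add, e1, e2, e3, e4, ← neg_add, inner_neg_right] at o
      have o2 : RCLike.re ⟪fop C a V α um x + fop C b W β up x, fop C a V α up x + fop C b W β um x⟫_ℂ = 0 := by
        rw [self_eq_neg.1 o, map_zero]
      simp only [Pi.add_apply, mul_left_comm (2 : ℝ) (p x), ← mul_add]
      refine mul_le_mul_of_nonneg_left ?_ (h0 x hxU)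
      rw [show fop C a V α up x + fop C a V α um x + (fop C b W β up x + fop C b W β um x) =
        (fop C a V α um x + fop C b W β up x) + (fop C a V α up x + fop C b W β um x) by abel,
        @norm_add_sq ℂ, o2, @norm_add_sq ℂ, @norm_add_sq ℂ, RCLike.re_to_complex, RCLike.re_to_complex]
      nlinarith [sq_nonneg ‖fop C b W β up x‖, sq_nonneg ‖fop C a V α up x‖, sq_nonneg ‖fop C b W β um x‖]
  rw [integral_add' (i1.add i2) i3, integral_add' i1 i2, integral_const_mul, integral_const_mul] at k4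
  simp only [fop_add C _ _ _ (d1 _) (d2 _), inner_add_right, Complex.add_re, mul_add,
    r2 (up _) (fop C b W β _ _)]
  linarith

end Crest.Agent.R330

end
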