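import Crest.Agent.R330.IB0
import Crest.Agent.R330.BF.Abs

/-! # Row 330, block BF/Defs: the operators `A`, `A₀`, `B` (owner helper3; statements frozen) -/

set_option autoImplicit false
set_option linter.unusedSectionVars false

noncomputable section

open MeasureTheory Filter Topology
open scoped InnerProductSpace ContDiff Matrix
open Crest.MathPhysics.MatrixQM (GammaNine)

namespace Crest.Agent.R330

variable {E Z L H F : Type}
  [NormedAddCommGroup E] [InnerProductSpace ℝ E] [FiniteDimensional ℝ E]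
  [NormedAddCommGroup Z] [InnerProductSpace ℝ Z] [FiniteDimensional ℝ Z]
  [NormedAddCommGroup L] [InnerProductSpace ℝ L] [FiniteDimensional ℝ L]
  [NormedAddCommGroup H] [InnerProductSpace ℝ H] [FiniteDimensional ℝ H]
  [NormedAddCommGroup F] [InnerProductSpace ℂ F] [FiniteDimensional ℂ F]
  [MeasurableSpace E] [BorelSpace E] [MeasurableSpace Z] [BorelSpace Z]
  [MeasurableSpace L] [BorelSpace L] [MeasurableSpace H] [BorelSpace H]
  {P : Type} [Fintype P] {𝔤 : Lie E} (D : Levi 𝔤 Z L H P) (C : Cl (Th E) F) (σ : Spn)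

namespace Levi

/-- The open cone where all coefficients are smooth. -/
def Ureg : Set (X E) := {x | D.zc x ∈ D.reg ∧ IsUnit (D.Dop (D.asm (D.zc x) (D.lc x) 0))}
/-- `η⁰_h = D_L⁻¹ Φ(z, h)`. -/
def eta0 (x : X E) (h : X H) : H :=
  Ring.inverse (D.Dop (D.asm (D.zc x) (D.lc x) 0)) (D.Phi (D.zc x) h)
/-- The light correction `(ad(l_i) η⁰_h)_i`. -/
def cor (x : X E) (h : X H) : X H := WithLp.toLp 2 fun i => D.adL (D.lc x i) (D.eta0 x h)
/-- `a h = perp (h + cor h)`. -/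
def aH (x : X E) (h : X H) : X H := D.perp (D.zc x) (h + D.cor x h)
/-- Heavy Clifford coefficients. -/
def cH (i : Fin (Module.finrank ℝ (X H))) : Th E :=
  cmap σ.G σ.s (liftI 9 D.iH (stdOrthonormalBasis ℝ (X H) i))
/-- Directions of `A`. -/
def VA (i : Fin (Module.finrank ℝ (X H))) (x : X E) : X E :=
  liftI 9 D.iH (D.aH x (stdOrthonormalBasis ℝ (X H) i))
/-- Directions of `A₀`. -/
def VA0 (i : Fin (Module.finrank ℝ (X H))) (x : X E) : X E :=
  liftI 9 D.iH (D.perp (D.zc x) (stdOrthonormalBasis ℝ (X H) i))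
/-- Orthonormal system spanning the central and light directions. -/
def bL : Fin (Module.finrank ℝ (X Z)) ⊕ Fin (Module.finrank ℝ (X L)) → X E :=
  Sum.elim (fun i => liftI 9 D.iZ (stdOrthonormalBasis ℝ (X Z) i))
    fun i => liftI 9 D.iL (stdOrthonormalBasis ℝ (X L) i)
/-- Directions of `B`. -/
def VB (k : Fin (Module.finrank ℝ (X Z)) ⊕ Fin (Module.finrank ℝ (X L))) (x : X E) : X E :=
  D.kap x (D.bL k)
/-- Potential of `A₀`. -/
def wA0 (x : X E) : Th E :=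
  fderiv ℝ (wpot 𝔤 σ.G σ.s) (liftI 9 D.iZ (D.zc x)) (liftI 9 D.iH (D.yc x))
/-- Potential of `A`. -/
def wA (x : X E) : Th E :=
  D.wA0 σ x + fderiv ℝ (wpot 𝔤 σ.G σ.s) (liftI 9 D.iL (D.lc x)) (liftI 9 D.iH (D.yc x))
/-- Potential of `B`. -/
def wB (ε : ℝ) (x : X E) : Th E :=
  liftI 16 D.iZ (ε • cmap σ.G σ.s (mat V0 (D.zc x))) +
    liftI 16 D.iL (wd D.𝔩 σ ε (fun _ => 0) (D.lc x))
/-- The operator `A`. -/
def opA : (X E → F) → X E → F := fop C (D.cH σ) D.VA (D.wA σ)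
/-- The operator `A₀`. -/
def opA0 : (X E → F) → X E → F := fop C (D.cH σ) D.VA0 (D.wA0 σ)
/-- The operator `B`. -/
def opB (ε : ℝ) : (X E → F) → X E → F :=
  fop C (fun k => cmap σ.G σ.s (D.bL k)) D.VB (D.wB σ ε)
/-- The gauge-like remainder direction `ad(z₈) λ Φ`. -/
def rvec (x : X E) : X H := lift 9 (D.adZ (D.zc x 8)) (D.lam (D.zc x) (D.Phi (D.zc x) (D.yc x)))
/-- `|M y^⊥|²`. -/
def msq (x : X E) : ℝ := ‖lift 9 (D.Mop (D.zc x)) (D.perp (D.zc x) (D.yc x))‖ ^ 2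
/-- `Σ m_p M_p`. -/
def sM (x : X E) : ℝ := ∑ p, D.m p * D.M p (D.zc x)
/-- The fine energy density. -/
def Ecal (v : X E → F) (x : X E) : ℝ :=
  D.gperp v x + (‖x‖ ^ 2 * ‖D.yc x‖ ^ 2 + ‖x‖) * ‖v x‖ ^ 2
/-- The error density. -/
def Err (ε : ℝ) (u : X E → F) (x : X E) : ℝ :=
  ‖D.yc x‖ ^ 2 / ‖x‖ ^ 2 * gsq u x + (‖D.yc x‖ ^ 4 + 1 / ‖x‖ ^ 2 + ε) * ‖u x‖ ^ 2
/-- Core functions supported in the tube, with the Gauss law where the weight is non-zero. -/
def Loc2 (κ θ R : ℝ) (u : X E → F) : Prop :=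
  Core u ∧ (∀ x ∈ tsupport u, x ∈ D.tube κ θ ∧ R ≤ ‖x‖ ∧ ‖D.Phi (D.zc x) (D.yc x)‖ < 1) ∧
    ∀ x, D.wtX x ≠ 0 → GaussAt 𝔤 C u x

theorem gperp_nonneg (u : X E → F) (x : X E) : 0 ≤ D.gperp u x :=
  Finset.sum_nonneg fun _ _ => sq_nonneg _

theorem Ecal_nonneg (u : X E → F) (x : X E) : 0 ≤ D.Ecal u x :=
  add_nonneg (D.gperp_nonneg u x) (by positivity)

theorem Err_nonneg {ε : ℝ} (hε : 0 ≤ ε) (u : X E → F) (x : X E) : 0 ≤ D.Err ε u x :=
  add_nonneg (mul_nonneg (by positivity) (Finset.sum_nonneg fun _ _ => sq_nonneg _)) (by positivity)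

theorem wtX_nonneg (x : X E) : 0 ≤ D.wtX x := D.wt_nonneg _ _

theorem PI_congr {f g : X E → ℝ} (h : ∀ x, D.wtX x ≠ 0 → f x = g x) : D.PI f = D.PI g := by
  refine integral_congr_ae (Eventually.of_forall fun x => ?_)
  by_cases hx : D.wtX x = 0
  · simp [hx]
  · simp [h x hx]

theorem PI_nonneg {f : X E → ℝ} (h : ∀ x, 0 ≤ f x) : 0 ≤ D.PI f :=
  integral_nonneg fun x => mul_nonneg (D.wtX_nonneg x) (h x)

theorem PI_int {K : Set (X E)} (hK : IsCompact K) {f : X E → ℝ} (hf : Gd K f) :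
    Integrable fun x => D.wtX x * f x :=
  (hf.mul_left D.continuous_wtX.continuousOn).integrable hK

theorem PI_mono {K : Set (X E)} (hK : IsCompact K) {f g : X E → ℝ} (hf : Gd K f) (hg : Gd K g)
    (h : ∀ x ∈ K, D.wtX x ≠ 0 → f x ≤ g x) : D.PI f ≤ D.PI g := by
  refine integral_mono (D.PI_int hK hf) (D.PI_int hK hg) fun x => ?_
  by_cases hx : D.wtX x = 0
  · simp [hx]
  by_cases hK : x ∈ K
  · exact mul_le_mul_of_nonneg_left (h x hK hx) (D.wtX_nonneg x)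
  · simp [hf.2 x hK, hg.2 x hK]

theorem PI_add {K : Set (X E)} (hK : IsCompact K) {f g : X E → ℝ} (hf : Gd K f) (hg : Gd K g) :
    D.PI (fun x => f x + g x) = D.PI f + D.PI g := by
  simp only [PI, mul_add]
  exact integral_add (D.PI_int hK hf) (D.PI_int hK hg)

theorem PI_const_mul (c : ℝ) (f : X E → ℝ) : D.PI (fun x => c * f x) = c * D.PI f := by
  simp only [PI, mul_left_comm _ c]
  exact integral_const_mul _ _

end Levi

end Crest.Agent.R330

end
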