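import Crest.Agent.R330.BF.Lie

/-! # Row 330, block BF/Div: divergences (owner helper3; statements frozen) -/

set_option autoImplicit false
set_option linter.unusedSectionVars false

noncomputable section

open MeasureTheory Filter Topology
open scoped InnerProductSpace ContDiff Matrix
open Crest.MathPhysics.MatrixQM (GammaNine)

namespace Crest.Agent.R330

variable {E Z L H F : Type}
  [NormedAddCommGroup E] [InnerProductSpace ℝ E] [FiniteDimensional ℝ E]
  [NormedAddCommGroup Z] [InnerProductSpace ℝ Z] [FiniteDimensional ℝ Z]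
  [NormedAddCommGroup L] [InnerProductSpace ℝ L] [FiniteDimensional ℝ L]
  [NormedAddCommGroup H] [InnerProductSpace ℝ H] [FiniteDimensional ℝ H]
  [NormedAddCommGroup F] [InnerProductSpace ℂ F] [FiniteDimensional ℂ F]
  [MeasurableSpace E] [BorelSpace E] [MeasurableSpace Z] [BorelSpace Z]
  [MeasurableSpace L] [BorelSpace L] [MeasurableSpace H] [BorelSpace H]
  {P : Type} [Fintype P] {𝔤 : Lie E} (D : Levi 𝔤 Z L H P) (C : Cl (Th E) F) (σ : Spn)

namespace Levi

/-- Derivative of the weight along a direction tangent to the levels of `Φ` (`fderiv_PhiX`,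
`fderiv_jac`). -/
theorem fderiv_wtX {x : X E} (hz : D.zc x ∈ D.reg) {v : X E} (hv : D.dPhi x v = 0) :
    fderiv ℝ D.wtX x v =
      D.wtX x * ∑ p, 2 * D.m p * fderiv ℝ (D.M p) (D.zc x) (D.zc v) / D.M p (D.zc x) := by
  have g : Differentiable ℝ fun t : H => Real.smoothTransition (2 - 4 * ‖t‖ ^ 2) :=
    ((Real.smoothTransition.contDiff (n := 1)).comp
      (contDiff_const.sub (contDiff_const.mul (contDiff_norm_sq ℝ)))).differentiable (by simp)
  have d1 := (g _).hasFDerivAt.comp x (D.contDiff_PhiX.differentiable (by simp) x).hasFDerivAt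
  have dj : DifferentiableAt ℝ D.jac (D.zc x) := by
    have : ContDiffAt ℝ ∞ D.jac (D.zc x) := contDiffAt_prod fun p _ =>
      ((D.contDiffOn_M p).contDiffAt (D.isOpen_reg.mem_nhds hz)).pow _
    exact this.differentiableAt (by simp)
  have d2 := dj.hasFDerivAt.comp x (LinearMap.toContinuousLinearMap D.zc).hasFDerivAt
  have e : fderiv ℝ D.wtX x v = _ := congr($((d1.mul d2).fderiv) v)
  rw [e]
  simp [D.fderiv_PhiX, hv, D.fderiv_jac hz, wtX, wt, mul_assoc]

/-- A heavy field, constant along the fibres and tangent to the levels of `Φ`, is divergence free: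
`tr (iH ∘ da) = tr (da ∘ iH) = 0` (`LinearMap.trace_comp_comm'`). -/
theorem divW_heavy {a : X E → X H} (ha : ContDiffOn ℝ ∞ a D.Ureg)
    (hc : ∀ x y, a (x + liftI 9 D.iH y) = a x) (hΦ : ∀ x ∈ D.Ureg, D.Phi (D.zc x) (a x) = 0) :
    DivW D.Ureg D.wtX (fun x => liftI 9 D.iH (a x)) fun _ => 0 := fun x hx => by
  have da := D.lie_df hx ha
  have dH := ((liftI 9 D.iH).toContinuousLinearMap.hasFDerivAt.comp x da.hasFDerivAt).fderiv
  have e : (fderiv ℝ (fun x => liftI 9 D.iH (a x)) x).toLinearMap =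
      (liftI 9 D.iH).toLinearMap ∘ₗ (fderiv ℝ a x).toLinearMap := congrArg ContinuousLinearMap.toLinearMap dH
  have e2 : (fderiv ℝ a x).toLinearMap ∘ₗ (liftI 9 D.iH).toLinearMap = 0 := LinearMap.ext fun y =>
    a0_line da fun t => by rw [LinearMap.zero_apply, smul_zero, add_zero]; exact (congrArg _ (by simp)).trans (hc x (t • y))
  rw [D.fderiv_wtX hx.1 (by rw [D.sl_dPhi, hΦ x hx]), e, LinearMap.trace_comp_comm', e2, D.a0_zc]
  simp

theorem divW_VA (i) : DivW D.Ureg D.wtX (D.VA i) fun _ => 0 :=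
  D.divW_heavy (D.contDiffOn_aH _) (fun x y => D.aH_add_heavy x y _) fun _ hx => D.Phi_perp hx.1 _

theorem divW_VA0 (i) : DivW D.Ureg D.wtX (D.VA0 i) fun _ => 0 :=
  D.divW_heavy (D.contDiffOn_perpX _) (fun x y => by rw [map_add, D.a0_zc, add_zero])
    fun _ hx => D.Phi_perp hx.1 _

theorem div_M (p : P) {z : X Z} (hz : z ∈ D.reg) (v : X Z) : |fderiv ℝ (D.M p) z v| ≤ D.M p v := by
  rw [D.fderiv_M p hz, abs_div, abs_of_pos (hz p), div_le_iff₀' (hz p), M, M,
    ← Real.sqrt_mul (Finset.sum_nonneg fun _ _ => sq_nonneg _)]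
  exact Real.abs_le_sqrt (Finset.sum_mul_sq_le_sq_mul_sq _ _ _)

theorem div_tr {Y : Type} [NormedAddCommGroup Y] [InnerProductSpace ℝ Y] [FiniteDimensional ℝ Y]
    (T : Y →L[ℝ] Y) : |LinearMap.trace ℝ Y T.toLinearMap| ≤ Module.finrank ℝ Y * ‖T‖ := by
  rw [LinearMap.trace_eq_sum_inner _ (stdOrthonormalBasis ℝ Y)]
  refine (Finset.abs_sum_le_sum_abs _ _).trans ((Finset.sum_le_card_nsmul _ _ ‖T‖ fun i _ => ?_).trans
    (by simp))
  simpa using (abs_real_inner_le_norm _ _).trans (mul_le_mul_of_nonneg_left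
    (T.le_opNorm (stdOrthonormalBasis ℝ Y i)) (norm_nonneg (stdOrthonormalBasis ℝ Y i)))

/-- `d k x = Σ 2 m_p ∂M_p/M_p + tr (fderiv (VB k) x)`; `dPhi_kap`, `fderiv_wtX`, `fderiv_M`
(Cauchy–Schwarz: `|∂_v M_p| ≤ M_p v ≤ b‖v‖`), `homog_bound` with `K = tube κ θ₀`. -/
theorem divW_VB {κ : ℝ} (hκ : 1 ≤ κ) : ∃ d : _ → X E → ℝ, (∀ k, ContinuousOn (d k) D.Ureg) ∧
    (∀ k, DivW D.Ureg D.wtX (D.VB k) (d k)) ∧ ∃ θ₀ B : ℝ, 0 < θ₀ ∧ 0 < B ∧
    ∀ θ, 0 ≤ θ → θ ≤ θ₀ → ∀ x ∈ D.tube κ θ, x ≠ 0 → ∀ k, |d k x| ≤ B / ‖x‖ := by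
  obtain ⟨θ₁, h₁, H₁⟩ := D.tube_Ureg hκ
  obtain ⟨c, hc, Hc⟩ := D.exists_M_le
  choose b hb Hb using fun k => homog_bound D.isOpen_Ureg (D.isClosed_tube κ θ₁) (H₁ θ₁ h₁.le le_rfl)
    (fun r hr x hx => D.smul_mem_tube hr hx) (D.contDiffOn_VB k) fun r hr x => D.VB_smul hr k x
  have s0 : 0 ≤ ∑ i, b i := Finset.sum_nonneg fun i _ => (hb i).le
  have cz : Continuous D.zc := D.zc.continuous_of_finiteDimensional
  have hκ0 : 0 < κ := by linarith
  refine ⟨fun k x => ∑ p, 2 * D.m p * fderiv ℝ (D.M p) (D.zc x) (D.zc (D.bL k)) / D.M p (D.zc x) +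
    LinearMap.trace ℝ (X E) (fderiv ℝ (D.VB k) x).toLinearMap, fun k => ContinuousOn.add
      (continuousOn_finsetSum _ fun p _ => ContinuousOn.div (continuousOn_const.mul ?_)
        ((D.continuous_M p).comp cz).continuousOn fun x hx => (hx.1 p).ne') ?_, fun k x hx => ?_, θ₁,
    (∑ p, 2 * D.m p * c * κ) + Module.finrank ℝ (X E) * (∑ i, b i) + 1, h₁, by positivity,
    fun θ hθ a1 x hx h0 k => ?_⟩
  · exact (((D.contDiffOn_M p).continuousOn_fderiv_of_isOpen D.isOpen_reg (by simp)).comp cz.continuousOn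
      fun x hx => hx.1).clm_apply continuousOn_const
  · exact ((LinearMap.trace ℝ (X E)) ∘ₗ ContinuousLinearMap.coeLM ℝ).continuous_of_finiteDimensional
      |>.comp_continuousOn ((D.contDiffOn_VB k).continuousOn_fderiv_of_isOpen D.isOpen_Ureg (by simp))
  · rw [D.fderiv_wtX hx.1 (v := D.VB k x) (D.dPhi_kap hx.1 _), mul_add, D.lie_zc k x]
  have hx0 := norm_pos_iff.2 h0
  have hz := (H₁ θ hθ a1 x hx h0).1
  have b1 : |∑ p, 2 * D.m p * fderiv ℝ (D.M p) (D.zc x) (D.zc (D.bL k)) / D.M p (D.zc x)| ≤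
      (∑ p, 2 * D.m p * c * κ) / ‖x‖ := by
    rw [Finset.sum_div]
    refine (Finset.abs_sum_le_sum_abs _ _).trans (Finset.sum_le_sum fun p _ => ?_)
    have t1 := (D.div_M p hz (D.zc (D.bL k))).trans ((Hc p _).trans (mul_le_of_le_one_right hc.le
      ((D.norm_zc_le _).trans_eq (D.sl_bL k).2)))
    rw [abs_div, abs_mul, abs_of_pos (hz p), abs_of_nonneg (by positivity), div_le_div_iff₀ (hz p) hx0,
      mul_assoc _ κ]
    gcongr
    exact hx.1 p
  have b2 := (div_tr (fderiv ℝ (D.VB k) x)).trans (mul_le_mul_of_nonneg_left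
    ((Hb k x (D.tube_mono a1 hx) h0).trans (div_le_div_of_nonneg_right
      (Finset.single_le_sum (fun i _ => (hb i).le) (Finset.mem_univ k)) hx0.le)) (Nat.cast_nonneg _))
  have : 0 ≤ 1 / ‖x‖ := by positivity
  rw [add_div, add_div, mul_div_assoc]
  exact (abs_add_le _ _).trans (by linarith)

end Levi

end Crest.Agent.R330

end
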