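import Crest.Agent.R330.BF.Abs

/-! # Row 330, block BF/Ibp: weighted integration by parts (owner helper3; statements frozen) -/

set_option autoImplicit false
set_option linter.unusedSectionVars false

noncomputable section

open MeasureTheory Filter Topology
open scoped InnerProductSpace ContDiff Matrix
open Crest.MathPhysics.MatrixQM (GammaNine)

namespace Crest.Agent.R330

variable {Y Θ F : Type} [NormedAddCommGroup Y] [InnerProductSpace ℝ Y] [FiniteDimensional ℝ Y]
  [MeasurableSpace Y] [BorelSpace Y]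
  [NormedAddCommGroup Θ] [InnerProductSpace ℝ Θ] [FiniteDimensional ℝ Θ]
  [NormedAddCommGroup F] [InnerProductSpace ℂ F] [FiniteDimensional ℂ F]
  {ι ι' : Type} [Fintype ι] [Fintype ι']

/-- Apply `integral_fderiv_field` to `p • h` (smooth by `contDiff_of_support`). -/
theorem ibp_field {W : Type} [NormedAddCommGroup W] [NormedSpace ℝ W] [CompleteSpace W] {U : Set Y}
    (hU : IsOpen U) {p : Y → ℝ} (hp : ContDiffOn ℝ ∞ p U) {V : Y → Y} (hV : ContDiffOn ℝ ∞ V U)
    {b : Y → ℝ} (hb : DivW U p V b) {h : Y → W} (hh : ContDiff ℝ 1 h) (hc : HasCompactSupport h)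
    (hs : tsupport h ⊆ U) :
    ∫ x, p x • fderiv ℝ h x (V x) = -∫ x, (p x * b x) • h x := by
  have z : ∀ {g : Y → W}, tsupport g ⊆ tsupport h → ∀ x, x ∉ tsupport h → g x = 0 ∧ fderiv ℝ g x = 0 :=
    fun hg x hx => ⟨image_eq_zero_of_notMem_tsupport fun h' => hx (hg h'),
      image_eq_zero_of_notMem_tsupport fun h' => hx (hg (tsupport_fderiv_subset ℝ h'))⟩
  have sg : tsupport (fun x => p x • h x) ⊆ tsupport h := tsupport_smul_subset_right _ _
  have hg : ContDiff ℝ 1 fun x => p x • h x := contDiff_of_support (isClosed_tsupport h) hU hs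
    (fun x hx => (z sg x hx).1) ((hp.of_le (by simp)).smul hh.contDiffOn)
  have key := integral_fderiv_field hg (hc.of_isClosed_subset (isClosed_tsupport _) sg) hU (sg.trans hs)
    (hV.of_le (by simp))
  have cV := hV.continuousOn.mono hs
  have i1 : Gd (tsupport h) fun x => p x • fderiv ℝ h x (V x) :=
    ⟨(hp.continuousOn.mono hs).smul ((hh.continuous_fderiv (by simp)).continuousOn.clm_apply cV),
      fun x hx => by simp [z subset_rfl x hx]⟩
  have i2 : Gd (tsupport h) fun x => fderiv ℝ (fun x => p x • h x) x (V x) :=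
    ⟨(hg.continuous_fderiv (by simp)).continuousOn.clm_apply cV, fun x hx => by simp only [(z sg x hx).2]; rfl⟩
  have i3 : Gd (tsupport h) fun x => LinearMap.trace ℝ Y (fderiv ℝ V x).toLinearMap • p x • h x :=
    Gd.smul (((LinearMap.trace ℝ Y) ∘ₗ ContinuousLinearMap.coeLM ℝ).continuous_of_finiteDimensional
      |>.comp_continuousOn ((hV.continuousOn_fderiv_of_isOpen hU (by simp)).mono hs))
      ⟨hg.continuous.continuousOn, fun x hx => (z sg x hx).1⟩
  have e : ∀ x, (p x * b x) • h x = fderiv ℝ (fun x => p x • h x) x (V x) +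
      LinearMap.trace ℝ Y (fderiv ℝ V x).toLinearMap • p x • h x - p x • fderiv ℝ h x (V x) := fun x => by
    by_cases hx : x ∈ tsupport h
    · rw [← hb x (hs hx), fderiv_fun_smul ((hp.contDiffAt (hU.mem_nhds (hs hx))).differentiableAt (by simp))
        (hh.differentiable (by simp) x)]
      simp only [_root_.add_apply, _root_.smul_apply, ContinuousLinearMap.smulRight_apply]
      module
    · simp [z subset_rfl x hx, (z sg x hx).2]
  simp only [e]
  rw [integral_sub ((i2.add i3).integrable hc) (i1.integrable hc),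
    integral_add (i2.integrable hc) (i3.integrable hc), key]
  abel

theorem CU.gd {U K : Set Y} {ψ : Y → F} (h : CU U ψ) (hs : tsupport ψ ⊆ K) : Gd K ψ := .of_core h.1 hs

theorem ibp_inner {U : Set Y} (hU : IsOpen U) {p : Y → ℝ} (hp : ContDiffOn ℝ ∞ p U) {V : Y → Y}
    (hV : ContDiffOn ℝ ∞ V U) {b : Y → ℝ} (hb : DivW U p V b) (hbc : ContinuousOn b U) {φ ψ : Y → F}
    (hφ : CU U φ) (hψ : CU U ψ) : Integrable (fun x => p x * ((⟪φ x, fderiv ℝ ψ x (V x)⟫_ℂ).re +
      (⟪fderiv ℝ φ x (V x), ψ x⟫_ℂ).re + b x * (⟪φ x, ψ x⟫_ℂ).re)) ∧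
    ∫ x, p x * ((⟪φ x, fderiv ℝ ψ x (V x)⟫_ℂ).re + (⟪fderiv ℝ φ x (V x), ψ x⟫_ℂ).re +
      b x * (⟪φ x, ψ x⟫_ℂ).re) = 0 := by
  have hK := hφ.1.2.union hψ.1.2
  have hKU := Set.union_subset hφ.2 hψ.2
  have cV := hV.continuousOn.mono hKU
  have cp := hp.continuousOn.mono hKU
  have g1 := hφ.gd (Set.subset_union_left (t := tsupport ψ))
  have g2 := hψ.gd (Set.subset_union_right (s := tsupport φ))
  have i1 := (((g1.re_inner (Gd.fderiv hψ.1 Set.subset_union_right cV)).add
    ((Gd.fderiv hφ.1 Set.subset_union_left cV).re_inner g2)).mul_left cp).integrable hK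
  have i2 := (((g1.re_inner g2).mul_left (hbc.mono hKU)).mul_left cp).integrable hK
  have sh : tsupport (fun x => (⟪φ x, ψ x⟫_ℂ).re) ⊆ tsupport ψ := abs_supp fun x hx => by simp [abs_zero hx]
  have key := ibp_field hU hp hV hb (h := fun x => (⟪φ x, ψ x⟫_ℂ).re)
    (Complex.reCLM.contDiff.comp ((hφ.1.1.inner ℂ hψ.1.1).of_le (by simp)))
    (hψ.1.2.of_isClosed_subset (isClosed_tsupport _) sh) (sh.trans hψ.2)
  have e : ∀ x v, fderiv ℝ (fun x => (⟪φ x, ψ x⟫_ℂ).re) x v =
      (⟪φ x, fderiv ℝ ψ x v⟫_ℂ).re + (⟪fderiv ℝ φ x v, ψ x⟫_ℂ).re := fun x v => by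
    have d1 := hφ.1.1.differentiable (by simp) x
    have d2 := hψ.1.1.differentiable (by simp) x
    rw [← Complex.add_re, ← fderiv_inner_apply ℂ d1 d2]
    exact congr($((Complex.reCLM.hasFDerivAt.comp x (d1.inner ℂ d2).hasFDerivAt).fderiv) v)
  simp only [e, smul_eq_mul, mul_assoc] at key
  simp only [mul_add _ (_ + _)]
  exact ⟨i1.add i2, by rw [integral_add i1 i2, key, neg_add_cancel]⟩

/-- The adjoint of `fop` for the weight `p`: `ibp_field` with `h = re ⟪(-i) θ(a i) φ, ψ⟫`, `inner_θ`;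
integrability by `Gd (tsupport ψ)`. -/
theorem fop_adj (C : Cl Θ F) (a : ι → Θ) {V : ι → Y → Y} {w : Y → Θ} {U : Set Y} (hU : IsOpen U)
    {p : Y → ℝ} (hp : ContDiffOn ℝ ∞ p U) (hV : ∀ i, ContDiffOn ℝ ∞ (V i) U)
    (hw : ContDiffOn ℝ ∞ w U) {b : ι → Y → ℝ} (hb : ∀ i, DivW U p (V i) (b i))
    (hbc : ∀ i, ContinuousOn (b i) U) {φ ψ : Y → F} (hφ : CU U φ) (hψ : CU U ψ) :
    ∫ x, p x * (⟪φ x, fop C a V w ψ x⟫_ℂ).re =
      (∫ x, p x * (⟪fop C a V w φ x, ψ x⟫_ℂ).re) +
        ∫ x, p x * (⟪∑ i, (-Complex.I) • ((b i x : ℝ) : ℂ) • C.θ (a i) (φ x), ψ x⟫_ℂ).re := by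
  have hK := hφ.1.2.union hψ.1.2
  have hKU := Set.union_subset hφ.2 hψ.2
  have cp := hp.continuousOn.mono hKU
  have g1 := hφ.gd (Set.subset_union_left (t := tsupport ψ))
  have g2 := hψ.gd (Set.subset_union_right (s := tsupport φ))
  have i1 := ((((hφ.fop C a hU hV hw).gd ((tsupport_fop ..).trans Set.subset_union_left)).re_inner
    g2).mul_left cp).integrable hK
  have i2 := (((Gd.sum fun i => Gd.smul (g := fun _ => -Complex.I) continuousOn_const
    (Gd.smul (Complex.continuous_ofReal.comp_continuousOn ((hbc i).mono hKU))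
      (g1.clm (T := fun _ => C.θ (a i)) continuousOn_const))).re_inner g2).mul_left cp).integrable hK
  let T : ι → F →L[ℝ] F := fun i => ((-Complex.I) • C.θ (a i)).restrictScalars ℝ
  have key := fun i => ibp_inner hU hp (hV i) (hb i) (hbc i) (φ := fun x => T i (φ x))
    (hφ.of_zero hU ((T i).contDiff.comp hφ.1.1).contDiffOn fun x hx => by simp [abs_zero hx]) hψ
  have e : ∀ i x v, fderiv ℝ (fun x => T i (φ x)) x v = T i (fderiv ℝ φ x v) := fun i x v =>
    congr($(((T i).hasFDerivAt.comp x (hφ.1.1.differentiable (by simp) x).hasFDerivAt).fderiv) v)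
  have k := integral_finsetSum Finset.univ fun i _ => (key i).1
  simp only [fun i => (key i).2, Finset.sum_const_zero] at k
  have i3 := integrable_finsetSum Finset.univ fun i _ => (key i).1
  simp only [Function.comp_apply] at i2
  rw [← integral_add i1 i2, ← sub_zero (∫ x, _ + _), ← k]
  refine Eq.trans (integral_congr_ae (Eventually.of_forall fun x => ?_)) (integral_sub (i1.add i2) i3)
  simp only [e]
  simp only [fop, T, inner_add_left, inner_add_right, sum_inner, inner_sum, inner_smul_left,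
    inner_smul_right, C.inner_θ, Complex.add_re, ← Finset.mul_sum, Finset.sum_add_distrib,
    ContinuousLinearMap.coe_restrictScalars', _root_.smul_apply, map_neg, Complex.conj_I, neg_neg,
    Complex.conj_ofReal, neg_mul, Complex.neg_re, Finset.sum_neg_distrib,
    Pi.add_apply, Complex.I_mul_re, Complex.im_ofReal_mul, mul_neg, Complex.im_sum]
  ring

/-- Vector field method: `0 ≤ ∫ p Σ ‖∂_{V i} f + W i f‖²` and `ibp_field` with `h = W i ‖f‖²`. -/
theorem vf_field {V : ι → Y → Y} {U : Set Y} (hU : IsOpen U) {p : Y → ℝ} (hp : ContDiffOn ℝ ∞ p U)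
    (h0 : ∀ x ∈ U, 0 ≤ p x) (hV : ∀ i, ContDiffOn ℝ ∞ (V i) U)
    (hd : ∀ i, DivW U p (V i) fun _ => 0) {W : ι → Y → ℝ} (hW : ∀ i, ContDiffOn ℝ ∞ (W i) U)
    {f : Y → F} (hf : CU U f) :
    ∫ x, p x * ((∑ i, fderiv ℝ (W i) x (V i x)) * ‖f x‖ ^ 2) ≤
      ∫ x, p x * (∑ i, ‖fderiv ℝ f x (V i x)‖ ^ 2 + (∑ i, W i x ^ 2) * ‖f x‖ ^ 2) := by
  have hg : ∀ i, CU U fun x => W i x • f x := fun i =>
    hf.of_zero hU ((hW i).smul hf.1.1.contDiffOn) fun x hx => by simp [abs_zero hx]
  have key := fun i => ibp_inner hU hp (hV i) (hd i) continuousOn_const (hg i) hf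
  have k := integral_finsetSum Finset.univ fun i _ => (key i).1
  simp only [fun i => (key i).2, Finset.sum_const_zero] at k
  have i3 := integrable_finsetSum Finset.univ fun i _ => (key i).1
  have cp := hp.continuousOn.mono hf.2
  have cV := fun i => (hV i).continuousOn.mono hf.2
  have g1 := (hf.gd subset_rfl).norm_sq
  have i1 := ((g1.mul_left (continuousOn_finsetSum Finset.univ fun i _ =>
    (((hW i).continuousOn_fderiv_of_isOpen hU (by simp)).mono hf.2).clm_apply (cV i))).mul_left cp).integrable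
    hf.1.2
  have i2 := (((Gd.sum fun i => (Gd.fderiv hf.1 subset_rfl (cV i)).norm_sq).add (g1.mul_left
    (continuousOn_finsetSum Finset.univ fun i _ => ((hW i).continuousOn.mono hf.2).pow 2))).mul_left
      cp).integrable hf.1.2
  simp only [Pi.pow_apply] at i2
  rw [← add_zero (∫ x, p x * (_ + _)), ← k, ← integral_add i2 i3]
  refine integral_mono i1 (i2.add i3) fun x => ?_
  by_cases hx : x ∈ tsupport f
  swap
  · simp [abs_zero hx]
  simp only [← Finset.mul_sum, ← mul_add]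
  refine mul_le_mul_of_nonneg_left ?_ (h0 x (hf.2 hx))
  rw [Finset.sum_mul, Finset.sum_mul, ← Finset.sum_add_distrib, ← Finset.sum_add_distrib]
  refine Finset.sum_le_sum fun i _ => ?_
  rw [fderiv_fun_smul (((hW i).contDiffAt (hU.mem_nhds (hf.2 hx))).differentiableAt (by simp))
    (hf.1.1.differentiable (by simp) x)]
  have n := sq_nonneg ‖fderiv ℝ f x (V i x) + W i x • f x‖
  have r : ∀ (t : ℝ) (a b : F), (⟪t • a, b⟫_ℂ).re = t * (⟪a, b⟫_ℂ).re := fun t a b => by
    rw [← Complex.coe_smul, inner_smul_left, Complex.conj_ofReal, Complex.re_ofReal_mul]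
  have r2 : ∀ a b : F, (⟪a, b⟫_ℂ).re = (⟪b, a⟫_ℂ).re := inner_re_symm (𝕜 := ℂ)
  have r3 : (⟪f x, f x⟫_ℂ).re = ‖f x‖ ^ 2 := inner_self_eq_norm_sq (𝕜 := ℂ) _
  rw [@norm_add_sq ℂ, norm_smul, mul_pow, Real.norm_eq_abs, sq_abs, RCLike.re_to_complex, r2, r] at n
  simp only [_root_.add_apply, _root_.smul_apply, ContinuousLinearMap.smulRight_apply, inner_add_left,
    Complex.add_re, r, r3, r2 (fderiv ℝ f x (V i x))]
  linarith

end Crest.Agent.R330

end
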