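import Crest.Agent.R330.BF.Ibp
import Crest.Agent.R330.BF.Div
import Crest.Agent.R330.BF.A0
import Crest.Agent.R330.BF.Gd

/-! # Row 330, block BF/Osc: the oscillator bound (owner helper3; statements frozen) -/

set_option autoImplicit false
set_option linter.unusedSectionVars false

noncomputable section

open MeasureTheory Filter Topology
open scoped InnerProductSpace ContDiff Matrix
open Crest.MathPhysics.MatrixQM (GammaNine)

namespace Crest.Agent.R330

variable {E Z L H F : Type}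
  [NormedAddCommGroup E] [InnerProductSpace ℝ E] [FiniteDimensional ℝ E]
  [NormedAddCommGroup Z] [InnerProductSpace ℝ Z] [FiniteDimensional ℝ Z]
  [NormedAddCommGroup L] [InnerProductSpace ℝ L] [FiniteDimensional ℝ L]
  [NormedAddCommGroup H] [InnerProductSpace ℝ H] [FiniteDimensional ℝ H]
  [NormedAddCommGroup F] [InnerProductSpace ℂ F] [FiniteDimensional ℂ F]
  [MeasurableSpace E] [BorelSpace E] [MeasurableSpace Z] [BorelSpace Z]
  [MeasurableSpace L] [BorelSpace L] [MeasurableSpace H] [BorelSpace H]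
  {P : Type} [Fintype P] {𝔤 : Lie E} (D : Levi 𝔤 Z L H P) (C : Cl (Th E) F) (σ : Spn)

namespace Levi

theorem osc_Mop (z : X Z) (w : X H) : lift 9 (D.Mop z) w = ∑ p, D.M p z • lift 9 (D.pr p) w := by
  ext i
  simp [Mop]

/-- `vf_field` with `V = VA0`, `W i x = ⟪e_i, lift (Mop z) (perp z y)⟫`;
`Σ ∂_{V i} W i = tr (lift Mop ∘ perp) = 8 Σ m_p M_p` (`exists_perp_lin`), `Σ W i² = msq`. -/
theorem osc_bound {v : X E → F} (hv : CU D.Ureg v) :
    D.PI (fun x => 8 * D.sM x * ‖v x‖ ^ 2) ≤ D.PI fun x => D.gperp v x + D.msq x * ‖v x‖ ^ 2 := by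
  set e := stdOrthonormalBasis ℝ (X H) with he
  have cz : ContDiff ℝ ∞ D.zc := (LinearMap.toContinuousLinearMap D.zc).contDiff
  have cy : ContDiff ℝ ∞ D.yc := (LinearMap.toContinuousLinearMap D.yc).contDiff
  have hW : ∀ i, ContDiffOn ℝ ∞ (fun x => ⟪e i, lift 9 (D.Mop (D.zc x)) (D.perp (D.zc x) (D.yc x))⟫_ℝ)
      D.Ureg := fun i => by
    simp only [osc_Mop]
    refine contDiffOn_const.inner ℝ (ContDiffOn.sum fun p _ => ContDiffOn.smul
      ((D.contDiffOn_M p).comp cz.contDiffOn fun x hx => hx.1) ?_)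
    exact (LinearMap.toContinuousLinearMap (lift 9 (D.pr p))).contDiff.comp_contDiffOn
      (D.contDiffOn_perp.comp (cz.prodMk cy).contDiffOn fun x hx => ⟨hx.1, trivial⟩)
  have key := vf_field D.isOpen_Ureg D.contDiffOn_wtX (fun x _ => D.wtX_nonneg x) D.contDiffOn_VA0
    D.divW_VA0 hW hv
  refine le_trans (le_of_eq (integral_congr_ae (Eventually.of_forall fun x => ?_)))
    (key.trans_eq (integral_congr_ae (Eventually.of_forall fun x => ?_)))
  · by_cases hx : x ∈ D.Ureg
    swap
    · simp [image_eq_zero_of_notMem_tsupport fun h => hx (hv.2 h)]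
    obtain ⟨A, hA, -, hi, -, -, -, ht⟩ := D.exists_perp_lin (D.zc x)
    have h1 : ∀ i, fderiv ℝ (fun x => ⟪e i, lift 9 (D.Mop (D.zc x)) (D.perp (D.zc x) (D.yc x))⟫_ℝ) x
        (D.VA0 i x) = ⟪e i, (∑ p, D.M p (D.zc x) • (lift 9 (D.pr p) ∘ₗ A)) (e i)⟫_ℝ := fun i =>
      a0_line (((hW i).contDiffAt (D.isOpen_Ureg.mem_nhds hx)).differentiableAt (by simp)) fun t => by
        simp only [VA0, map_add, map_smul, D.a0_zc, D.a0_yc, smul_zero, add_zero, ← hA, hi hx.1,
          inner_add_right, inner_smul_right, smul_eq_mul, osc_Mop, LinearMap.sum_apply,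
          LinearMap.smul_apply, LinearMap.comp_apply, he]
    simp only [h1]
    rw [← LinearMap.trace_eq_sum_inner, map_sum, sM, Finset.mul_sum]
    congr 2
    refine Finset.sum_congr rfl fun p _ => ?_
    rw [map_smul, ht hx.1 p, smul_eq_mul]
    ring
  · simp only [e.sum_sq_inner_right]
    rfl

end Levi

end Crest.Agent.R330

end
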