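import Crest.Agent.R330.BF.Cross
import Crest.Agent.R330.BF.Osc
import Crest.Agent.R330.BF.Lie
import Crest.Agent.R330.BF.A0
import Crest.Agent.R330.BF.Gd

/-! # Row 330, block BF/Low: lower bound for `A₀` (owner helper3; statements frozen) -/

set_option autoImplicit false
set_option linter.unusedSectionVars false

noncomputable section

open MeasureTheory Filter Topology
open scoped InnerProductSpace ContDiff Matrix
open Crest.MathPhysics.MatrixQM (GammaNine)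

namespace Crest.Agent.R330

variable {E Z L H F : Type}
  [NormedAddCommGroup E] [InnerProductSpace ℝ E] [FiniteDimensional ℝ E]
  [NormedAddCommGroup Z] [InnerProductSpace ℝ Z] [FiniteDimensional ℝ Z]
  [NormedAddCommGroup L] [InnerProductSpace ℝ L] [FiniteDimensional ℝ L]
  [NormedAddCommGroup H] [InnerProductSpace ℝ H] [FiniteDimensional ℝ H]
  [NormedAddCommGroup F] [InnerProductSpace ℂ F] [FiniteDimensional ℂ F]
  [MeasurableSpace E] [BorelSpace E] [MeasurableSpace Z] [BorelSpace Z]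
  [MeasurableSpace L] [BorelSpace L] [MeasurableSpace H] [BorelSpace H]
  {P : Type} [Fintype P] {𝔤 : Lie E} (D : Levi 𝔤 Z L H P) (C : Cl (Th E) F) (σ : Spn)

namespace Levi

/-- Lower bound for `A₀` on the odd part. -/
theorem A0_lower {κ : ℝ} (hκ : 1 ≤ κ) : ∃ c θ₀ B R₀ : ℝ, 0 < c ∧ 0 < θ₀ ∧ 0 < B ∧ 0 < R₀ ∧
    ∀ θ, 0 ≤ θ → θ ≤ θ₀ → ∀ R, R₀ ≤ R → ∀ u, D.Loc2 C κ θ R u →
      c * D.PI (D.Ecal (D.odd C u)) ≤
        D.PI (fun x => ‖D.opA0 C σ (D.odd C u) x‖ ^ 2) + B * D.PI (D.Err 0 u) := by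
  classical
  obtain ⟨θ₁, B₁, h₁, hB₁, H₁⟩ := D.rem_bound C hκ
  obtain ⟨θ₂, B₂, h₂, hB₂, H₂⟩ := D.msq_lower hκ
  obtain ⟨θ₃, h₃, H₃⟩ := D.tube_Ureg hκ
  have hκ0 : 0 < κ := by linarith
  obtain ⟨s, hs, hs1, hs2⟩ : ∃ s : ℝ, 0 < s ∧ s ≤ 1 ∧ 4 * s * B₂ ≤ κ⁻¹ / 4 :=
    ⟨min 1 (κ⁻¹ / 4 / (4 * B₂)), by positivity, min_le_left _ _, by
      have := (le_div_iff₀ (by positivity)).1 (min_le_right 1 (κ⁻¹ / 4 / (4 * B₂))); linarith⟩
  obtain ⟨c, hc, hc1, hc2, hc3⟩ : ∃ c : ℝ, 0 < c ∧ c ≤ s / 4 ∧ c * B₂ ≤ s / 2 ∧ c * (1 + B₂) ≤ κ⁻¹ / 2 :=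
    ⟨min (s / 4) (min (s / 2 / B₂) (κ⁻¹ / 2 / (1 + B₂))), by positivity, min_le_left _ _,
      (le_div_iff₀ hB₂).1 ((min_le_right _ _).trans (min_le_left _ _)),
      (le_div_iff₀ (by positivity)).1 ((min_le_right _ _).trans (min_le_right _ _))⟩
  refine ⟨c, min θ₁ (min θ₂ θ₃), 1, max 1 (κ * B₁ / (s / 4)), hc, by positivity, one_pos, by positivity,
    fun θ hθ hθ' R hR u hu => ?_⟩
  simp only [le_min_iff, max_le_iff] at hθ' hR
  obtain ⟨a1, a2, a3⟩ := hθ'
  have hR0 : 0 < R := by linarith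
  have hK : IsCompact (tsupport u) := hu.1.2
  have hKU : tsupport u ⊆ D.Ureg := fun x hx => H₃ θ hθ a3 x (hu.2.1 x hx).1 (hu.ne hR0 hx)
  have hm : CU D.Ureg (D.odd C u) := ⟨D.core_odd C hu.1, (D.tsupport_odd C u).trans hKU⟩
  have key := fop_energy C (D.inner_cH σ) D.isOpen_Ureg D.contDiffOn_wtX D.contDiffOn_VA0
    (D.contDiff_wA0 σ).contDiffOn D.divW_VA0 (fun i j x hx => D.lie_VA0 i j hx) hm
  have osc := D.osc_bound hm
  set v := D.odd C u with hv
  change D.PI (fun x => ‖D.opA0 C σ v x‖ ^ 2) = D.PI (fun x => 1 / 2 * D.gperp v x +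
    1 / 2 * ‖D.wA0 σ x‖ ^ 2 * ‖v x‖ ^ 2 + (⟪v x, ∑ i, (-Complex.I) •
      (C.θ (D.cH σ i) (C.θ (fderiv ℝ (D.wA0 σ) x (D.VA0 i x)) (v x)) +
        ((⟪D.cH σ i, D.wA0 σ x⟫_ℝ : ℝ) : ℂ) • fderiv ℝ v x (D.VA0 i x))⟫_ℂ).re) at key
  have sv : tsupport v ⊆ tsupport u := D.tsupport_odd C u
  have gv : Gd (tsupport u) v := .of_core hm.1 sv
  have gE := D.gd_Ecal hKU hm.1 sv
  have gR := D.gd_Err (fun x hx => hu.ne hR0 hx) 0 hu.1 subset_rfl
  have gg := D.gd_gperp hKU hm.1 sv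
  have g1 := gg.add (gv.norm_sq.mul_left (D.continuousOn_msq.mono hKU))
  have g2 : Gd (tsupport u) fun x => 8 * D.sM x * ‖v x‖ ^ 2 :=
    gv.norm_sq.mul_left (continuous_const.mul D.continuous_sM).continuousOn
  have cw := (D.contDiff_wA0 σ).continuous
  have cV := fun i => (D.contDiffOn_VA0 i).continuousOn.mono hKU
  have k := D.PI_mono hK (((gE.const_mul c).add (gR.const_mul (-1))).add
      ((g1.const_mul ((1 - s) / 2)).add (g2.const_mul (-((1 - s) / 2)))))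
    (((gg.const_mul (1 / 2)).add (gv.norm_sq.mul_left (g := fun x => 1 / 2 * ‖D.wA0 σ x‖ ^ 2)
      (by fun_prop))).add (gv.re_inner (Gd.sum fun i => Gd.smul (g := fun _ => -Complex.I) continuousOn_const
        (Gd.add ((gv.clm (C.contDiff_θ.continuous.comp_continuousOn
          (((D.contDiff_wA0 σ).continuous_fderiv (by simp)).continuousOn.clm_apply (cV i)))).clm
            (T := fun _ => C.θ (D.cH σ i)) continuousOn_const)
          ((Gd.fderiv hm.1 sv (cV i)).smul (g := fun x => ((⟪D.cH σ i, D.wA0 σ x⟫_ℝ : ℝ) : ℂ))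
            (by fun_prop)))))) fun x hx hw => by
      obtain ⟨t1, t2, t3⟩ := hu.2.1 x hx
      have hx0 := hu.ne hR0 hx
      have hz := (hKU hx).1
      have du : DifferentiableAt ℝ u x := hu.1.1.differentiable (by simp) x
      have b1 := H₁ θ hθ a1 x t1 hx0 t3 u du (hu.2.2 x hw)
      obtain ⟨b2, b3⟩ := H₂ θ hθ a2 x t1 hx0
      have b3 := b3 t3
      have b4 := D.fermion_gap C σ hκ t1 hz (D.Pi_odd C σ u hz)
      simp only [Function.comp_apply]
      rw [D.A0_low_order C σ hz v (D.gauss_odd C du (hu.2.2 x hw) _), D.norm_wA0_sq σ hz, inner_sub_right,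
        Complex.sub_re]
      have b5 := (abs_le.1 ((Complex.abs_re_le_norm _).trans (norm_inner_le_norm (𝕜 := ℂ) (v x)
        (Complex.I • fderiv ℝ v x (liftI 9 D.iH (D.rvec x)))))).2
      rw [norm_smul, Complex.norm_I, one_mul] at b5
      rw [← hv] at b1 b4
      have e0 := D.Err_nonneg le_rfl u x
      have g0 := D.gperp_nonneg v x
      have m0 : 0 ≤ D.msq x := sq_nonneg _
      unfold Ecal
      generalize ‖fderiv ℝ v x (liftI 9 D.iH (D.rvec x))‖ = r at *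
      generalize D.gperp v x = g at *
      generalize D.Err 0 u x = e at *
      generalize D.msq x = m at *
      generalize ‖x‖ = ρ at *
      have hρ : 0 < ρ := by linarith
      have n0 := sq_nonneg ‖v x‖
      have c1 : ‖v x‖ * r ≤ κ⁻¹ / 4 * ρ * ‖v x‖ ^ 2 + κ / ρ * r ^ 2 := by
        have : κ⁻¹ / 4 * ρ * ‖v x‖ ^ 2 + κ / ρ * r ^ 2 - ‖v x‖ * r = κ / ρ * (r - ρ / (2 * κ) * ‖v x‖) ^ 2 := by
          field_simp; ring
        nlinarith [mul_nonneg (div_pos hκ0 hρ).le (sq_nonneg (r - ρ / (2 * κ) * ‖v x‖))]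
      have c2 : κ / ρ * r ^ 2 ≤ s / 4 * (g + e) := by
        refine (mul_le_mul_of_nonneg_left b1 (div_pos hκ0 hρ).le).trans ?_
        rw [← mul_assoc]
        refine mul_le_mul_of_nonneg_right ?_ (add_nonneg g0 e0)
        rw [div_mul_eq_mul_div, div_le_iff₀ hρ]
        have := (div_le_iff₀ (by positivity)).1 (hR.2.trans t2)
        linarith
      have c3 : 4 * s * D.sM x ≤ κ⁻¹ / 4 * ρ := by
        nlinarith [mul_le_mul_of_nonneg_left b2 (show 0 ≤ 4 * s by positivity)]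
      have c4 : c * (ρ ^ 2 * ‖D.yc x‖ ^ 2 + ρ) ≤ s / 2 * m + κ⁻¹ / 2 * ρ := by
        have := mul_le_mul_of_nonneg_left b3 hc.le
        have := mul_le_mul_of_nonneg_right hc2 m0
        have := mul_le_mul_of_nonneg_right hc3 hρ.le
        have := mul_le_mul_of_nonneg_left (hR.1.trans t2) (mul_pos hc hB₂).le
        linarith
      have c5 := mul_le_mul_of_nonneg_right c3 n0
      have c6 := mul_le_mul_of_nonneg_right c4 n0
      have c7 := mul_le_mul_of_nonneg_right hc1 g0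
      have c8 := mul_le_mul_of_nonneg_right hs1 e0
      rw [div_eq_mul_inv ρ κ] at b4
      linarith
  rw [D.PI_add hK ((gE.const_mul c).add (gR.const_mul (-1)))
      ((g1.const_mul _).add (g2.const_mul _)), D.PI_add hK (gE.const_mul c) (gR.const_mul (-1)),
    D.PI_add hK (g1.const_mul _) (g2.const_mul _), D.PI_const_mul, D.PI_const_mul, D.PI_const_mul,
    D.PI_const_mul] at k
  have := mul_le_mul_of_nonneg_left osc (show 0 ≤ (1 - s) / 2 by linarith)
  rw [key]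
  simp only [Function.comp_apply] at k
  linarith

end Levi

end Crest.Agent.R330

end
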