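import Crest.Agent.R330.BF.Defs

/-! # Row 330, block BF/Smooth: smoothness and homogeneity of the coefficients (owner helper3; statements frozen) -/

set_option autoImplicit false
set_option linter.unusedSectionVars false

noncomputable section

open MeasureTheory Filter Topology
open scoped InnerProductSpace ContDiff Matrix
open Crest.MathPhysics.MatrixQM (GammaNine)

namespace Crest.Agent.R330

variable {E Z L H F : Type}
  [NormedAddCommGroup E] [InnerProductSpace ℝ E] [FiniteDimensional ℝ E]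
  [NormedAddCommGroup Z] [InnerProductSpace ℝ Z] [FiniteDimensional ℝ Z]
  [NormedAddCommGroup L] [InnerProductSpace ℝ L] [FiniteDimensional ℝ L]
  [NormedAddCommGroup H] [InnerProductSpace ℝ H] [FiniteDimensional ℝ H]
  [NormedAddCommGroup F] [InnerProductSpace ℂ F] [FiniteDimensional ℂ F]
  [MeasurableSpace E] [BorelSpace E] [MeasurableSpace Z] [BorelSpace Z]
  [MeasurableSpace L] [BorelSpace L] [MeasurableSpace H] [BorelSpace H]
  {P : Type} [Fintype P] {𝔤 : Lie E} (D : Levi 𝔤 Z L H P) (C : Cl (Th E) F) (σ : Spn)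

namespace Levi

theorem sm_z : ContDiff ℝ ∞ D.zc := (LinearMap.toContinuousLinearMap D.zc).contDiff
theorem sm_l : ContDiff ℝ ∞ D.lc := (LinearMap.toContinuousLinearMap D.lc).contDiff
theorem sm_y : ContDiff ℝ ∞ D.yc := (LinearMap.toContinuousLinearMap D.yc).contDiff
theorem sm_D : ContDiff ℝ ∞ fun x => D.Dop (D.asm (D.zc x) (D.lc x) 0) :=
  D.contDiff_Dop.comp ((((liftI 9 D.iZ).contDiff.comp D.sm_z).add ((liftI 9 D.iL).contDiff.comp D.sm_l)).add
    contDiff_const)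
theorem isOpen_Ureg : IsOpen D.Ureg :=
  (D.isOpen_reg.preimage D.sm_z.continuous).inter (Units.isOpen.preimage D.sm_D.continuous)
theorem isClosed_tube (κ θ : ℝ) : IsClosed (D.tube κ θ) := by
  have := D.sm_l.continuous
  have := D.sm_y.continuous
  refine IsClosed.inter (s₁ := {x | ∀ p, ‖x‖ ≤ κ * D.M p (D.zc x)}) ?_
    (isClosed_le (f := fun x => ‖D.lc x‖ + ‖D.yc x‖) (g := fun x => θ * ‖x‖) (by fun_prop) (by fun_prop))
  rw [Set.setOf_forall]
  exact isClosed_iInter fun p => isClosed_le continuous_norm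
    (continuous_const.mul ((D.continuous_M p).comp D.sm_z.continuous))
theorem smul_mem_tube {κ θ r : ℝ} (hr : 0 < r) {x : X E} (hx : x ∈ D.tube κ θ) :
    r • x ∈ D.tube κ θ := by
  refine ⟨fun p => ?_, ?_⟩ <;> simp only [map_smul, norm_smul, D.M_smul, Real.norm_eq_abs, abs_of_pos hr]
  · linarith [mul_le_mul_of_nonneg_left (hx.1 p) hr.le]
  · linarith [mul_le_mul_of_nonneg_left hx.2 hr.le]
theorem tube_mono {κ θ θ' : ℝ} (h : θ ≤ θ') : D.tube κ θ ⊆ D.tube κ θ' := fun _ hx =>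
  ⟨hx.1, hx.2.trans (by gcongr)⟩
theorem contDiffOn_wtX : ContDiffOn ℝ ∞ D.wtX D.Ureg := by
  have := D.contDiffOn_wt.comp (s := D.Ureg) (D.sm_z.prodMk D.sm_y).contDiffOn fun _ hx => ⟨hx.1, trivial⟩
  exact this
/-- `contDiffAt_ringInverse`, `contDiff_Dop`, `contDiff_Phi`, `contDiffOn_perp`. -/
theorem contDiffOn_aH (h : X H) : ContDiffOn ℝ ∞ (fun x => D.aH x h) D.Ureg := by
  have h1 : ContDiffOn ℝ ∞ (fun x => D.eta0 x h) D.Ureg := by
    intro x hx
    obtain ⟨w, hw⟩ := hx.2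
    have h0 := contDiffAt_ringInverse ℝ (n := ∞) w
    rw [hw] at h0
    have := (h0.comp x D.sm_D.contDiffAt).clm_apply
      (D.contDiff_Phi.comp (D.sm_z.prodMk (contDiff_const (c := h)))).contDiffAt
    exact this.contDiffWithinAt
  have h2 : ContDiffOn ℝ ∞ (fun x => D.cor x h) D.Ureg := (contDiffOn_piLp' 2) fun i =>
    ((LinearMap.toContinuousLinearMap ((LinearMap.toContinuousLinearMap : (H →ₗ[ℝ] H) ≃ₗ[ℝ] _).toLinearMap ∘ₗ
      D.adL ∘ₗ PiLp.projₗ 2 _ i ∘ₗ D.lc)).contDiff.contDiffOn.clm_apply h1 :)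
  have := D.contDiffOn_perp.comp (D.sm_z.contDiffOn.prodMk ((contDiffOn_const (c := h)).add h2))
    fun _ hx => ⟨hx.1, trivial⟩
  exact this
theorem contDiffOn_perpX (h : X H) : ContDiffOn ℝ ∞ (fun x => D.perp (D.zc x) h) D.Ureg :=
  D.contDiffOn_perp.comp (D.sm_z.prodMk contDiff_const).contDiffOn fun _ hx => ⟨hx.1, trivial⟩
theorem contDiffOn_VA (i) : ContDiffOn ℝ ∞ (D.VA i) D.Ureg :=
  (liftI 9 D.iH).contDiff.comp_contDiffOn (D.contDiffOn_aH _)
theorem contDiffOn_VA0 (i) : ContDiffOn ℝ ∞ (D.VA0 i) D.Ureg :=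
  (liftI 9 D.iH).contDiff.comp_contDiffOn (D.contDiffOn_perpX _)
theorem contDiffOn_VB (k) : ContDiffOn ℝ ∞ (D.VB k) D.Ureg := by
  have := D.contDiffOn_lam.comp (s := D.Ureg)
    (D.sm_z.prodMk ((D.contDiff_Phi.comp (D.sm_z.prodMk (contDiff_const (c := D.yc (D.bL k))))).add
      (D.contDiff_Phi.comp ((contDiff_const (c := D.zc (D.bL k))).prodMk D.sm_y)))).contDiffOn
    fun _ hx => ⟨hx.1, trivial⟩
  exact contDiffOn_const.sub ((liftI 9 D.iH).contDiff.comp_contDiffOn this)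
theorem sm_w : ContDiff ℝ ∞ (fderiv ℝ (wpot 𝔤 σ.G σ.s)) := (contDiff_wpot 𝔤 σ.G σ.s).fderiv_right (by simp)
theorem contDiff_wA0 : ContDiff ℝ ∞ (D.wA0 σ) :=
  ((sm_w σ).comp ((liftI 9 D.iZ).contDiff.comp D.sm_z)).clm_apply ((liftI 9 D.iH).contDiff.comp D.sm_y)
theorem contDiff_wA : ContDiff ℝ ∞ (D.wA σ) := (D.contDiff_wA0 σ).add
  (((sm_w σ).comp ((liftI 9 D.iL).contDiff.comp D.sm_l)).clm_apply ((liftI 9 D.iH).contDiff.comp D.sm_y))
theorem contDiff_wB (ε : ℝ) : ContDiff ℝ ∞ (D.wB σ ε) :=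
  ((liftI 16 D.iZ).contDiff.comp
    ((LinearMap.toContinuousLinearMap (cmap σ.G σ.s ∘ₗ mat V0 ∘ₗ D.zc)).contDiff.const_smul ε)).add
    ((liftI 16 D.iL).contDiff.comp ((contDiff_wd D.𝔩 σ ε contDiff_const).comp D.sm_l))
theorem continuousOn_msq : ContinuousOn D.msq D.Ureg := by
  have e : ∀ z w, lift 9 (D.Mop z) w = ∑ p, D.M p z • lift 9 (D.pr p) w := fun z w => by
    ext i; simp [Mop]
  unfold msq
  simp only [e]
  exact (continuousOn_finsetSum _ fun p _ => ((D.continuous_M p).comp D.sm_z.continuous).continuousOn.smul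
    ((lift 9 (D.pr p)).continuous_of_finiteDimensional.comp_continuousOn (D.contDiffOn_perp.comp
      (D.sm_z.prodMk D.sm_y).contDiffOn fun _ hx => ⟨hx.1, trivial⟩).continuousOn)).norm.pow 2
theorem continuous_sM : Continuous D.sM :=
  continuous_finsetSum _ fun p _ => continuous_const.mul ((D.continuous_M p).comp D.sm_z.continuous)
theorem sm_lam {r : ℝ} (hr : 0 < r) (z : X Z) (t : H) : D.lam (r • z) (r • t) = D.lam z t := by
  have : D.Minv (r • z) t = (r ^ 2)⁻¹ • D.Minv z t := by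
    simp [Minv, D.M_smul, mul_pow, Finset.smul_sum, smul_smul, mul_comm]
  have e : ∀ a, D.adZ (r • a) = r • D.adZ a := fun a => by simp [adZ, Finset.smul_sum, smul_smul]
  ext i
  simp only [lam, map_smul, this, PiLp.smul_apply, e, LinearMap.smul_apply, smul_smul]
  rw [show r * (r ^ 2)⁻¹ * r = 1 by field_simp, one_smul]
theorem sm_Phi (r : ℝ) (z : X Z) (y : X H) : D.Phi (r • z) y = r • D.Phi z y ∧ D.Phi z (r • y) = r • D.Phi z y := by
  simp [Phi, adZ, Finset.smul_sum, smul_smul]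
/-- `Dop_smul`, `Ring.inverse (r² • D) = r⁻² • Ring.inverse D` (also for non-units), `M_smul`. -/
theorem aH_smul {r : ℝ} (hr : 0 < r) (x : X E) (h : X H) : D.aH (r • x) h = D.aH x h := by
  have e1 : D.asm (r • D.zc x) (r • D.lc x) 0 = r • D.asm (D.zc x) (D.lc x) 0 := by simp [asm]
  have e2 : ∀ T : H →L[ℝ] H, Ring.inverse (r ^ 2 • T) = (r ^ 2)⁻¹ • Ring.inverse T := fun T => by
    have h2 : r ^ 2 ≠ 0 := by positivity
    have hi : IsUnit (r ^ 2 • T) ↔ IsUnit T := isUnit_smul_iff (Units.mk0 _ h2) T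
    by_cases hT : IsUnit T
    · rw [← mul_one (Ring.inverse _), Ring.inverse_mul_eq_iff_eq_mul _ _ _ (hi.2 hT), smul_mul_smul_comm,
        mul_inv_cancel₀ h2, Ring.mul_inverse_cancel _ hT, one_smul]
    · rw [Ring.inverse_non_unit _ hT, smul_zero, Ring.inverse_non_unit _ (mt hi.1 hT)]
  have e3 : D.cor (r • x) h = D.cor x h := by
    ext i
    simp only [cor, eta0, map_smul, e1, D.Dop_smul, e2, (D.sm_Phi _ _ _).1, PiLp.smul_apply,
      LinearMap.smul_apply, _root_.smul_apply, smul_smul]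
    rw [show r * (r ^ 2)⁻¹ * r = 1 by field_simp, one_smul]
  rw [aH, aH, e3, perp, perp, map_smul, (D.sm_Phi _ _ _).1, D.sm_lam hr]
theorem VB_smul {r : ℝ} (hr : 0 < r) (k) (x : X E) : D.VB k (r • x) = D.VB k x := by
  rw [VB, VB, kap, kap, dPhi, dPhi, map_smul, map_smul, (D.sm_Phi _ _ _).1, (D.sm_Phi _ _ _).2, ← smul_add,
    D.sm_lam hr]
theorem aH_add_heavy (x : X E) (y h : X H) : D.aH (x + liftI 9 D.iH y) h = D.aH x h := by
  have e1 : D.zc (liftI 9 D.iH y) = 0 := by simpa [asm] using D.zc_asm 0 0 y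
  have e2 : D.lc (liftI 9 D.iH y) = 0 := by simpa [asm] using D.lc_asm 0 0 y
  simp only [aH, cor, eta0, map_add, e1, e2, add_zero]

end Levi

end Crest.Agent.R330

end
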