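import Crest.Agent.R330.BF.Cross
import Crest.Agent.R330.BF.Div
import Crest.Agent.R330.BF.AB
import Crest.Agent.R330.BF.Gd

/-! # Row 330, block BF/Up: upper bound for `A` (owner helper3; statements frozen) -/

set_option autoImplicit false
set_option linter.unusedSectionVars false

noncomputable section

open MeasureTheory Filter Topology
open scoped InnerProductSpace ContDiff Matrix
open Crest.MathPhysics.MatrixQM (GammaNine)

namespace Crest.Agent.R330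

variable {E Z L H F : Type}
  [NormedAddCommGroup E] [InnerProductSpace ℝ E] [FiniteDimensional ℝ E]
  [NormedAddCommGroup Z] [InnerProductSpace ℝ Z] [FiniteDimensional ℝ Z]
  [NormedAddCommGroup L] [InnerProductSpace ℝ L] [FiniteDimensional ℝ L]
  [NormedAddCommGroup H] [InnerProductSpace ℝ H] [FiniteDimensional ℝ H]
  [NormedAddCommGroup F] [InnerProductSpace ℂ F] [FiniteDimensional ℂ F]
  [MeasurableSpace E] [BorelSpace E] [MeasurableSpace Z] [BorelSpace Z]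
  [MeasurableSpace L] [BorelSpace L] [MeasurableSpace H] [BorelSpace H]
  {P : Type} [Fintype P] {𝔤 : Lie E} (D : Levi 𝔤 Z L H P) (C : Cl (Th E) F) (σ : Spn)

namespace Levi

theorem up_amgm {a b ρ t : ℝ} (hρ : 0 < ρ) (ht : 0 < t) :
    2 * (a * b) ≤ t * (ρ ^ 2 * b ^ 2) + t⁻¹ * (a ^ 2 / ρ ^ 2) := by
  have e : t * (ρ ^ 2 * b ^ 2) + t⁻¹ * (a ^ 2 / ρ ^ 2) - 2 * (a * b) = t * (ρ * b - a / (t * ρ)) ^ 2 := by
    field_simp; ring
  nlinarith [mul_nonneg ht.le (sq_nonneg (ρ * b - a / (t * ρ)))]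

theorem up_re (a b : F) : -(‖a‖ * ‖b‖) ≤ (⟪a, b⟫_ℂ).re :=
  (abs_le.1 ((Complex.abs_re_le_norm _).trans (norm_inner_le_norm a b))).1

/-- Upper bound for `A` on the odd part. -/
theorem A_upper {κ : ℝ} (hκ : 1 ≤ κ) {δ : ℝ} (hδ : 0 < δ) : ∃ θ₀ B : ℝ, 0 < θ₀ ∧ 0 < B ∧
    ∀ θ, 0 ≤ θ → θ ≤ θ₀ → ∀ R, 0 < R → ∀ ε, 0 ≤ ε → ε ≤ 1 → ∀ u, D.Loc2 C κ θ R u →
      D.PI (fun x => ‖D.opA C σ (D.odd C u) x‖ ^ 2) ≤ δ * D.PI (D.Ecal (D.odd C u)) +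
        B * (D.PI (fun x => ‖Qe 𝔤 C σ ε u x‖ ^ 2) + D.PI (D.Err ε u)) := by
  obtain ⟨θ₁, h₁, H₁⟩ := D.tube_Ureg hκ
  obtain ⟨d, hdc, hd, θ₂, B₂, h₂, hB₂, H₂⟩ := D.divW_VB hκ
  obtain ⟨θ₃, B₃, h₃, hB₃, H₃⟩ := D.anticomm_AB C σ hκ
  obtain ⟨θ₄, B₄, h₄, hB₄, H₄⟩ := D.split_Q C σ hκ
  obtain ⟨N, hN⟩ : ∃ N : ℝ, N = Fintype.card
    (Fin (Module.finrank ℝ (X Z)) ⊕ Fin (Module.finrank ℝ (X L))) := ⟨_, rfl⟩
  obtain ⟨t, ht, htδ⟩ : ∃ t : ℝ, 0 < t ∧ t * B₃ = δ / 2 := ⟨δ / 2 / B₃, by positivity, by field_simp⟩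
  refine ⟨min (min θ₁ θ₂) (min θ₃ θ₄), 4 + 4 * B₄ + 2 * t⁻¹ + 4 * (N * B₂) ^ 2, by positivity,
    by positivity, fun θ hθ hθ' R hR ε hε hε1 u hu => ?_⟩
  simp only [le_min_iff] at hθ'
  obtain ⟨⟨a1, a2⟩, a3, a4⟩ := hθ'
  have hK : IsCompact (tsupport u) := hu.1.2
  have hKU : tsupport u ⊆ D.Ureg := fun x hx => H₁ θ hθ a1 x (hu.2.1 x hx).1 (hu.ne hR hx)
  have hm : CU D.Ureg (D.odd C u) := ⟨D.core_odd C hu.1, (D.tsupport_odd C u).trans hKU⟩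
  have hp : CU D.Ureg fun x => u x - D.odd C u x := ⟨D.core_even C hu.1, (D.tsupport_even C u).trans hKU⟩
  have key := fop_cross C (D.cH σ) (fun k => cmap σ.G σ.s (D.bL k)) D.isOpen_Ureg D.contDiffOn_wtX
    (fun x _ => D.wtX_nonneg x) D.contDiffOn_VA D.contDiffOn_VB (D.contDiff_wA σ).contDiffOn
    (D.contDiff_wB σ ε).contDiffOn D.divW_VA hd hdc (D.isPar_Gam C).1
    (fun i => by obtain ⟨h, e⟩ := D.exists_cH σ i; rw [e]; exact D.Gam_heavy C h)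
    (fun x hx => by obtain ⟨h, e⟩ := D.exists_wA σ hx.1; rw [e]; exact D.Gam_heavy C h)
    (fun k => by obtain ⟨a, b, e⟩ := D.exists_cB σ k; rw [e]; exact D.Gam_light C a b)
    (fun x _ => D.Gam_light C _ _) hp hm (D.Gam_even C u) (D.Gam_odd C u)
    (u := u) fun x => (sub_add_cancel _ _).symm
  set v := D.odd C u with hv
  change D.PI (fun x => ‖D.opA C σ v x‖ ^ 2) +
    2 * D.PI (fun x => (⟪u x - v x, D.opA C σ (D.opB C σ ε v) x + D.opB C σ ε (D.opA C σ v) x⟫_ℂ).re) +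
    2 * D.PI (fun x => (⟪∑ j, (-Complex.I) • ((d j x : ℝ) : ℂ) • C.θ (cmap σ.G σ.s (D.bL j))
      (D.opA C σ v x), u x - v x⟫_ℂ).re) ≤ D.PI fun x => ‖D.opA C σ u x + D.opB C σ ε u x‖ ^ 2 at key
  have sv : tsupport v ⊆ tsupport u := D.tsupport_odd C u
  have gA : Gd (tsupport u) (D.opA C σ v) := .of_core (D.CU_opA C σ hm).1 ((tsupport_fop ..).trans sv)
  have gp : Gd (tsupport u) fun x => u x - v x := .of_core hp.1 (D.tsupport_even C u)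
  have gE := D.gd_Ecal hKU hm.1 sv
  have gR := D.gd_Err (fun x hx => hu.ne hR hx) ε hu.1 subset_rfl
  have gQ := (gd_Qe (𝔤 := 𝔤) C σ ε hu.1).norm_sq
  have k1 : D.PI (fun x => -(δ / 4) * D.Ecal v x + -(t⁻¹ / 2) * D.Err ε u x) ≤ D.PI (fun x =>
      (⟪u x - v x, D.opA C σ (D.opB C σ ε v) x + D.opB C σ ε (D.opA C σ v) x⟫_ℂ).re) := by
    refine D.PI_mono hK ((gE.const_mul _).add (gR.const_mul _)) (gp.re_inner (Gd.add
      (.of_core (D.CU_opA C σ (D.CU_opB C σ ε hm)).1 ((tsupport_fop ..).trans ((tsupport_fop ..).trans sv)))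
      (.of_core (D.CU_opB C σ ε (D.CU_opA C σ hm)).1 ((tsupport_fop ..).trans ((tsupport_fop ..).trans sv)))))
      fun x hx _ => le_trans ?_ (up_re _ _)
    have b1 := mul_le_mul_of_nonneg_left (H₃ θ hθ a3 x (hu.2.1 x hx).1 (hu.ne hR hx) ε v hm.1.1) ht.le
    have b2 := mul_le_mul_of_nonneg_right (D.norm_even_le C u x)
      (norm_nonneg (D.opA C σ (D.opB C σ ε v) x + D.opB C σ ε (D.opA C σ v) x))
    have b3 := up_amgm (a := ‖u x‖) (b := ‖D.opA C σ (D.opB C σ ε v) x + D.opB C σ ε (D.opA C σ v) x‖)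
      (norm_pos_iff.2 (hu.ne hR hx)) ht
    have b4 := mul_le_mul_of_nonneg_left (D.le_Err hε u x) (inv_pos.2 ht).le
    rw [← mul_assoc t B₃, htδ] at b1
    linarith
  have k2 : D.PI (fun x => -(1 / 4) * ‖D.opA C σ v x‖ ^ 2 + -((N * B₂) ^ 2) * D.Err ε u x) ≤
      D.PI (fun x => (⟪∑ j, (-Complex.I) • ((d j x : ℝ) : ℂ) • C.θ (cmap σ.G σ.s (D.bL j))
        (D.opA C σ v x), u x - v x⟫_ℂ).re) := by
    refine D.PI_mono hK ((gA.norm_sq.const_mul _).add (gR.const_mul _)) (Gd.re_inner (Gd.sum fun j =>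
      Gd.smul continuousOn_const (Gd.smul (Complex.continuous_ofReal.comp_continuousOn ((hdc j).mono hKU))
        (gA.clm continuousOn_const))) gp) fun x hx _ => le_trans ?_ (up_re _ _)
    have hx0 := norm_pos_iff.2 (hu.ne hR hx)
    have b1 : ‖∑ j, (-Complex.I) • ((d j x : ℝ) : ℂ) • C.θ (cmap σ.G σ.s (D.bL j)) (D.opA C σ v x)‖ ≤
        N * (B₂ / ‖x‖ * ‖D.opA C σ v x‖) := by
      refine (norm_sum_le _ _).trans ((Finset.sum_le_card_nsmul _ _ _ fun j _ => ?_).trans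
        (by rw [nsmul_eq_mul, Finset.card_univ, hN]))
      rw [norm_smul, norm_smul, norm_neg, Complex.norm_I, one_mul, Complex.norm_real, Real.norm_eq_abs]
      refine mul_le_mul (H₂ θ hθ a2 x (hu.2.1 x hx).1 (hu.ne hR hx) j) ?_ (norm_nonneg _) (by positivity)
      simpa only [D.norm_cB σ j, one_mul] using C.norm_θ_le (cmap σ.G σ.s (D.bL j)) (D.opA C σ v x)
    have b2 := mul_le_mul b1 (D.norm_even_le C u x) (norm_nonneg _) ((norm_nonneg _).trans b1)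
    have b4 := mul_le_mul_of_nonneg_left (D.le_Err hε u x) (sq_nonneg (N * B₂))
    have e : (N * B₂) ^ 2 * (‖u x‖ ^ 2 / ‖x‖ ^ 2) = (N * B₂ * ‖u x‖ / ‖x‖) ^ 2 := by ring
    have e2 : N * (B₂ / ‖x‖ * ‖D.opA C σ v x‖) * ‖u x‖ = (N * B₂ * ‖u x‖ / ‖x‖) * ‖D.opA C σ v x‖ := by ring
    nlinarith [sq_nonneg (N * B₂ * ‖u x‖ / ‖x‖ - ‖D.opA C σ v x‖ / 2)]
  have hu' : CU D.Ureg u := ⟨hu.1, hKU⟩
  have k3 : D.PI (fun x => ‖D.opA C σ u x + D.opB C σ ε u x‖ ^ 2) ≤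
      D.PI fun x => 2 * ‖Qe 𝔤 C σ ε u x‖ ^ 2 + 2 * B₄ * D.Err ε u x := by
    refine D.PI_mono hK (Gd.add (.of_core (D.CU_opA C σ hu').1 (tsupport_fop ..))
      (.of_core (D.CU_opB C σ ε hu').1 (tsupport_fop ..))).norm_sq
      ((gQ.const_mul _).add (gR.const_mul _)) fun x hx hw => ?_
    have b1 := H₄ θ hθ a4 x (hu.2.1 x hx).1 (hu.ne hR hx) ε hε hε1 u (hu.2.2 x hw)
    have b2 := norm_sub_le (Qe 𝔤 C σ ε u x) (Qe 𝔤 C σ ε u x - (D.opA C σ u x + D.opB C σ ε u x))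
    rw [sub_sub_cancel] at b2
    have b3 := pow_le_pow_left₀ (norm_nonneg _) b2 2
    nlinarith [sq_nonneg (‖Qe 𝔤 C σ ε u x‖ - ‖Qe 𝔤 C σ ε u x - (D.opA C σ u x + D.opB C σ ε u x)‖)]
  rw [D.PI_add hK (gE.const_mul _) (gR.const_mul _), D.PI_const_mul, D.PI_const_mul] at k1
  rw [D.PI_add hK (gA.norm_sq.const_mul _) (gR.const_mul _), D.PI_const_mul, D.PI_const_mul] at k2
  rw [D.PI_add hK (gQ.const_mul _) (gR.const_mul _), D.PI_const_mul, D.PI_const_mul] at k3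
  have p1 := D.PI_nonneg (D.Err_nonneg hε u)
  have p2 := D.PI_nonneg fun x => sq_nonneg ‖Qe 𝔤 C σ ε u x‖
  have p3 : 0 ≤ (4 * B₄ + 2 * t⁻¹ + 4 * (N * B₂) ^ 2) * D.PI fun x => ‖Qe 𝔤 C σ ε u x‖ ^ 2 := by positivity
  linarith

end Levi

end Crest.Agent.R330

end
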